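import Vale.Agent.P372.Swap.Link

open Matrix Kronecker
open scoped ComplexOrder MatrixOrder

set_option linter.unusedSectionVars false
set_option linter.unusedSimpArgs false

namespace Vale.Agent.P372.Swap

variable {A B A' B' : Type} [Fintype A] [DecidableEq A] [Fintype B] [DecidableEq B]
  [Fintype A'] [DecidableEq A'] [Fintype B'] [DecidableEq B']

theorem sum_pairs (n : ℕ) (f : (Fin n → A' × B') → ℂ) :
    ∑ w, f w = ∑ x : (Fin n → A') × (Fin n → B'), f fun i => (x.1 i, x.2 i) := by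
  rw [← (Equiv.arrowProdEquivProdArrow (Fin n) (fun _ => A') (fun _ => B')).symm.sum_comp]
  rfl

theorem tpow_link (n : ℕ) (s : Matrix (A × A') (A × A') ℂ) (t : Matrix (B × B') (B × B') ℂ)
    (M : Matrix (A' × B') (A' × B') ℂ) :
    tpow n (link s t M) = link (tpow n s) (tpow n t) (tpow n M) := by
  ext p q
  simp only [tpow, link]
  rw [Finset.prod_univ_sum, Fintype.piFinset_univ, sum_pairs]
  refine Finset.sum_congr rfl fun x _ => ?_
  rw [Finset.prod_univ_sum, Fintype.piFinset_univ, sum_pairs]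
  refine Finset.sum_congr rfl fun y _ => ?_
  rw [Finset.prod_mul_distrib, Finset.prod_mul_distrib]

theorem tpow_psd (n : ℕ) {s : Matrix (A × A') (A × A') ℂ} (hs : s.PosSemidef) :
    (tpow n s).PosSemidef := by
  have h := (piT_posSemidef (ι := Fin n) fun _ => hs).submatrix
    (fun (p : (Fin n → A) × (Fin n → A')) i => (p.1 i, p.2 i))
  exact h

theorem tpow_pt (n : ℕ) (s : Matrix (A × A') (A × A') ℂ) :
    pTrans (tpow n s) = tpow n (pTrans s) := rfl

theorem tpow_pt_psd (n : ℕ) {s : Matrix (A × A') (A × A') ℂ} (hs : (pTrans s).PosSemidef) :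
    (pTrans (tpow n s)).PosSemidef := by
  rw [tpow_pt]
  exact tpow_psd n hs

theorem link_eq_sum {s : Matrix (A × A') (A × A') ℂ} {t : Matrix (B × B') (B × B') ℂ}
    {κ μ : Type} [Fintype κ] [Fintype μ] {G : κ → Matrix A A' ℂ} {H : μ → Matrix B B' ℂ}
    (hG : ∀ p y q x, s (p, y) (q, x) = ∑ k, G k p y * star (G k q x))
    (hH : ∀ p y q x, t (p, y) (q, x) = ∑ k, H k p y * star (H k q x))
    (M : Matrix (A' × B') (A' × B') ℂ) :
    link s t M = ∑ m : κ × μ, (G m.1 ⊗ₖ H m.2) * M * (G m.1 ⊗ₖ H m.2)ᴴ := by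
  ext p q
  rw [link, Matrix.sum_apply]
  have e1 : ∀ m : κ × μ, ((G m.1 ⊗ₖ H m.2) * M * (G m.1 ⊗ₖ H m.2)ᴴ) p q =
      ∑ x, ∑ y, (G m.1 p.1 x.1 * star (G m.1 q.1 y.1)) *
        (H m.2 p.2 x.2 * star (H m.2 q.2 y.2)) * M x y := by
    intro m
    rw [Finset.sum_comm, mul_apply]
    refine Finset.sum_congr rfl fun y _ => ?_
    rw [mul_apply, Finset.sum_mul]
    refine Finset.sum_congr rfl fun x _ => ?_
    rw [conjTranspose_apply, kroneckerMap_apply, kroneckerMap_apply, star_mul']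
    ring
  have e2 : ∀ x y : A' × B', s (p.1, x.1) (q.1, y.1) * t (p.2, x.2) (q.2, y.2) * M x y =
      ∑ m : κ × μ, (G m.1 p.1 x.1 * star (G m.1 q.1 y.1)) *
        (H m.2 p.2 x.2 * star (H m.2 q.2 y.2)) * M x y := by
    intro x y
    rw [hG, hH, Finset.sum_mul_sum, Fintype.sum_prod_type, Finset.sum_mul]
    refine Finset.sum_congr rfl fun k _ => ?_
    rw [Finset.sum_mul]
  simp only [e1, e2]
  have e3 : ∀ x : A' × B', ∑ y : A' × B', ∑ m : κ × μ,
      (G m.1 p.1 x.1 * star (G m.1 q.1 y.1)) *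
        (H m.2 p.2 x.2 * star (H m.2 q.2 y.2)) * M x y =
      ∑ m : κ × μ, ∑ y : A' × B', (G m.1 p.1 x.1 * star (G m.1 q.1 y.1)) *
        (H m.2 p.2 x.2 * star (H m.2 q.2 y.2)) * M x y := fun x => Finset.sum_comm
  simp only [e3]
  exact Finset.sum_comm

/-- `link` of positive semidefinite operators is positive semidefinite. -/
theorem link_psd {s : Matrix (A × A') (A × A') ℂ} {t : Matrix (B × B') (B × B') ℂ}
    {M : Matrix (A' × B') (A' × B') ℂ} (hs : s.PosSemidef) (ht : t.PosSemidef)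
    (hM : M.PosSemidef) : (link s t M).PosSemidef := by
  obtain ⟨G, hG⟩ := exists_kraus hs
  obtain ⟨H, hH⟩ := exists_kraus ht
  rw [link_eq_sum hG hH]
  exact posSemidef_sum _ fun m _ => hM.mul_mul_conjTranspose_same _

end Vale.Agent.P372.Swap
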