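import Vale.Agent.P372.Bdl.B1

/-! The block matrix `[[P₁ ⊗ Q₁, H], [H, P₀ ⊗ Q₀]] ≥ 0` with `H` Hermitian gives
`2 H ≤ P₁ ⊗ Q₀ + P₀ ⊗ Q₁`. -/

open Matrix Kronecker
open scoped ComplexOrder MatrixOrder

namespace Vale.Agent.P372.Swap

variable {A B C : Type} [Fintype A] [DecidableEq A] [Fintype B] [DecidableEq B] [Fintype C]
  [DecidableEq C]

/-- From the block matrix `[[1, H], [H, D]] ≥ 0`: `‖H v‖² ≤ ⟨v, D v⟩`. -/
theorem blk_le {H D : Matrix C C ℂ} (hH : H.IsHermitian)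
    (h : (fromBlocks 1 H H D).PosSemidef) (v : C → ℂ) :
    0 ≤ star v ⬝ᵥ (D *ᵥ v) - star (H *ᵥ v) ⬝ᵥ (H *ᵥ v) := by
  have h1 := h.dotProduct_mulVec_nonneg (Sum.elim (-(H *ᵥ v)) v)
  have h2 : star (Sum.elim (-(H *ᵥ v)) v) ⬝ᵥ
      (fromBlocks 1 H H D *ᵥ Sum.elim (-(H *ᵥ v)) v) =
      star v ⬝ᵥ (D *ᵥ v) - star (H *ᵥ v) ⬝ᵥ (H *ᵥ v) := by
    rw [fromBlocks_mulVec]
    have hs : star (Sum.elim (-(H *ᵥ v)) v) = Sum.elim (star (-(H *ᵥ v))) (star v) := by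
      funext i; cases i <;> rfl
    rw [hs, sumElim_dotProduct_sumElim, Sum.elim_comp_inl, Sum.elim_comp_inr, one_mulVec,
      neg_add_cancel, dotProduct_zero, mulVec_neg, dotProduct_add, dotProduct_neg, zero_add]
    have h3 : star v ⬝ᵥ (H *ᵥ (H *ᵥ v)) = star (H *ᵥ v) ⬝ᵥ (H *ᵥ v) := by
      rw [star_mulVec, hH.eq, ← dotProduct_mulVec]
    rw [h3]
    ring
  rw [h2] at h1
  exact h1

/-- Monotonicity of the square root, with a diagonal right-hand side. -/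
theorem sqrt_mono {H : Matrix C C ℂ} (hH : H.IsHermitian) {g : C → ℝ} (hg : ∀ i, 0 ≤ g i)
    (h : (fromBlocks 1 H H (diagonal fun i => ((g i * g i : ℝ) : ℂ))).PosSemidef) :
    (diagonal (fun i => (g i : ℂ)) - H).PosSemidef := by
  set G : Matrix C C ℂ := diagonal (fun i => (g i : ℂ)) with hG
  have hGp : G.PosSemidef := by
    rw [hG]
    refine PosSemidef.diagonal fun i => ?_
    show (0 : ℂ) ≤ (g i : ℂ)
    exact_mod_cast hg i
  have hGG : G * G = diagonal fun i => ((g i * g i : ℝ) : ℂ) := by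
    rw [hG, diagonal_mul_diagonal]
    push_cast
    rfl
  have hK : (G - H).IsHermitian := hGp.isHermitian.sub hH
  rw [hK.posSemidef_iff_eigenvalues_nonneg]
  intro i
  by_contra hneg
  have hneg' : hK.eigenvalues i < 0 := not_le.mp hneg
  set l : ℝ := hK.eigenvalues i with hl
  set v : C → ℂ := (hK.eigenvectorBasis i : C → ℂ) with hv
  have hv1 : (G - H) *ᵥ v = (l : ℂ) • v := by
    have := hK.mulVec_eigenvectorBasis i
    rw [hv, this]
    rfl
  have hHv : H *ᵥ v = G *ᵥ v - (l : ℂ) • v := by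
    rw [← hv1, sub_mulVec]
    abel
  have hvv : star v ⬝ᵥ v = 1 := by
    have h5 := hK.eigenvectorBasis.orthonormal.1 i
    have h6 : inner ℂ (hK.eigenvectorBasis i) (hK.eigenvectorBasis i) = (1 : ℂ) := by
      rw [inner_self_eq_norm_sq_to_K, h5]
      simp
    rw [← h6, EuclideanSpace.inner_eq_star_dotProduct, dotProduct_comm]
  have h7 := blk_le hH h v
  rw [hHv, ← hGG] at h7
  have h8 : star v ⬝ᵥ ((G * G) *ᵥ v) -
      star (G *ᵥ v - (l : ℂ) • v) ⬝ᵥ (G *ᵥ v - (l : ℂ) • v) =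
      2 * (l : ℂ) * (star v ⬝ᵥ (G *ᵥ v)) - (l : ℂ) * (l : ℂ) := by
    have h9 : star v ⬝ᵥ ((G * G) *ᵥ v) = star (G *ᵥ v) ⬝ᵥ (G *ᵥ v) := by
      rw [star_mulVec, hGp.isHermitian.eq, ← mulVec_mulVec, ← dotProduct_mulVec]
    have h10 : star (G *ᵥ v) ⬝ᵥ v = star v ⬝ᵥ (G *ᵥ v) := by
      rw [star_mulVec, hGp.isHermitian.eq, ← dotProduct_mulVec]
    rw [h9, star_sub, star_smul, sub_dotProduct, dotProduct_sub, dotProduct_sub, smul_dotProduct,
      smul_dotProduct, dotProduct_smul, dotProduct_smul, h10, hvv, Complex.star_def,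
      Complex.conj_ofReal]
    simp only [smul_eq_mul]
    ring
  rw [h8] at h7
  have h11 := hGp.dotProduct_mulVec_nonneg v
  have h12 := (Complex.le_def.mp h7).1
  have h13 := (Complex.le_def.mp h11).1
  have h14 : (2 * (l : ℂ) * (star v ⬝ᵥ (G *ᵥ v)) - (l : ℂ) * (l : ℂ)).re =
      2 * l * (star v ⬝ᵥ (G *ᵥ v)).re - l * l := by
    simp [Complex.mul_re]
  rw [h14, Complex.zero_re] at h12
  rw [Complex.zero_re] at h13
  nlinarith [mul_pos_of_neg_of_neg hneg' hneg', mul_nonneg h13 (neg_nonneg.mpr hneg'.le)]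

/-- The diagonal case. -/
theorem core_diag {H : Matrix (A × B) (A × B) ℂ} (hH : H.IsHermitian) {d : A → ℝ} {e : B → ℝ}
    (hd : ∀ i, 0 ≤ d i) (he : ∀ j, 0 ≤ e j)
    (h : (fromBlocks 1 H H (diagonal fun p : A × B => ((d p.1 * e p.2 : ℝ) : ℂ))).PosSemidef) :
    (diagonal (fun p : A × B => ((d p.1 + e p.2 : ℝ) : ℂ)) - (2 : ℂ) • H).PosSemidef := by
  have h1 := sqrt_mono hH (g := fun p => √(d p.1) * √(e p.2))
    (fun p => mul_nonneg (Real.sqrt_nonneg _) (Real.sqrt_nonneg _)) (by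
      have : (fun p : A × B => ((√(d p.1) * √(e p.2) * (√(d p.1) * √(e p.2)) : ℝ) : ℂ)) =
          fun p : A × B => ((d p.1 * e p.2 : ℝ) : ℂ) := by
        funext p
        congr 1
        rw [mul_mul_mul_comm, Real.mul_self_sqrt (hd _), Real.mul_self_sqrt (he _)]
      rw [this]
      exact h)
  have h2 : (diagonal (fun p : A × B =>
      (((√(d p.1) - √(e p.2)) * (√(d p.1) - √(e p.2)) : ℝ) : ℂ))).PosSemidef := by
    refine PosSemidef.diagonal fun i => ?_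
    show (0 : ℂ) ≤ (((√(d i.1) - √(e i.2)) * (√(d i.1) - √(e i.2)) : ℝ) : ℂ)
    exact_mod_cast mul_self_nonneg (√(d i.1) - √(e i.2))
  have h3 : diagonal (fun p : A × B => ((d p.1 + e p.2 : ℝ) : ℂ)) - (2 : ℂ) • H =
      diagonal (fun p : A × B => (((√(d p.1) - √(e p.2)) * (√(d p.1) - √(e p.2)) : ℝ) : ℂ)) +
      ((diagonal (fun p : A × B => ((√(d p.1) * √(e p.2) : ℝ) : ℂ)) - H) +
        (diagonal (fun p : A × B => ((√(d p.1) * √(e p.2) : ℝ) : ℂ)) - H)) := by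
    have h4 : diagonal (fun p : A × B => ((d p.1 + e p.2 : ℝ) : ℂ)) =
        diagonal (fun p : A × B => (((√(d p.1) - √(e p.2)) * (√(d p.1) - √(e p.2)) : ℝ) : ℂ)) +
        (diagonal (fun p : A × B => ((√(d p.1) * √(e p.2) : ℝ) : ℂ)) +
        diagonal (fun p : A × B => ((√(d p.1) * √(e p.2) : ℝ) : ℂ))) := by
      rw [diagonal_add, diagonal_add]
      congr 1
      funext p
      rw [← Complex.ofReal_add, ← Complex.ofReal_add]
      congr 1
      have e1 := Real.mul_self_sqrt (hd p.1)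
      have e2 := Real.mul_self_sqrt (he p.2)
      linear_combination (-1 : ℝ) * e1 - e2
    rw [h4, two_smul]
    abel
  rw [h3]
  exact h2.add (h1.add h1)

/-- Simultaneous diagonalization by congruence. -/
theorem sim {P₀ P₁ : Matrix A A ℂ} (h0 : P₀.PosSemidef) (h1 : P₁.PosDef) :
    ∃ (G : Matrix A A ℂ) (d : A → ℝ), IsUnit G ∧ (∀ i, 0 ≤ d i) ∧ P₁ = G * Gᴴ ∧
      P₀ = G * diagonal (fun i => (d i : ℂ)) * Gᴴ := by
  obtain ⟨S, hS⟩ := CStarAlgebra.nonneg_iff_eq_star_mul_self.mp h1.posSemidef.nonneg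
  have hS' : P₁ = Sᴴ * S := hS
  have hSu : IsUnit S := by
    have h2 : IsUnit (Sᴴ * S) := hS' ▸ h1.isUnit
    rw [isUnit_iff_isUnit_det, det_mul] at h2
    rw [isUnit_iff_isUnit_det]
    exact isUnit_of_mul_isUnit_right h2
  have hSi : S⁻¹ * S = 1 := nonsing_inv_mul S ((isUnit_iff_isUnit_det S).mp hSu)
  have hSi' : Sᴴ * (S⁻¹)ᴴ = 1 := by
    rw [← conjTranspose_mul, hSi, conjTranspose_one]
  have hN : ((S⁻¹)ᴴ * P₀ * S⁻¹).PosSemidef := h0.conjTranspose_mul_mul_same _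
  refine ⟨Sᴴ * (hN.isHermitian.eigenvectorUnitary : Matrix A A ℂ), hN.isHermitian.eigenvalues,
    ?_, hN.eigenvalues_nonneg, ?_, ?_⟩
  · refine IsUnit.mul ?_ ?_
    · exact hSu.star
    · exact (Unitary.toUnits hN.isHermitian.eigenvectorUnitary).isUnit
  · rw [conjTranspose_mul, conjTranspose_conjTranspose]
    calc P₁ = Sᴴ * 1 * S := by rw [Matrix.mul_one, hS']
      _ = Sᴴ * ((hN.isHermitian.eigenvectorUnitary : Matrix A A ℂ) *
          (hN.isHermitian.eigenvectorUnitary : Matrix A A ℂ)ᴴ) * S := by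
        rw [eigU_mul hN.isHermitian]
      _ = _ := by simp only [Matrix.mul_assoc]
  · rw [conjTranspose_mul, conjTranspose_conjTranspose]
    have h5 := spectral_eq hN.isHermitian
    calc P₀ = (Sᴴ * (S⁻¹)ᴴ) * P₀ * (S⁻¹ * S) := by
          rw [hSi, hSi', Matrix.one_mul, Matrix.mul_one]
      _ = Sᴴ * ((S⁻¹)ᴴ * P₀ * S⁻¹) * S := by simp only [Matrix.mul_assoc]
      _ = Sᴴ * ((hN.isHermitian.eigenvectorUnitary : Matrix A A ℂ) *
          diagonal (fun i => (hN.isHermitian.eigenvalues i : ℂ)) *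
          (hN.isHermitian.eigenvectorUnitary : Matrix A A ℂ)ᴴ) * S := by rw [← h5]
      _ = _ := by simp only [Matrix.mul_assoc]

/-- The case of positive definite `P₁`, `Q₁`. -/
theorem core_pd {P₀ P₁ : Matrix A A ℂ} {Q₀ Q₁ : Matrix B B ℂ} {H : Matrix (A × B) (A × B) ℂ}
    (hP₀ : P₀.PosSemidef) (hP₁ : P₁.PosDef) (hQ₀ : Q₀.PosSemidef) (hQ₁ : Q₁.PosDef)
    (hH : H.IsHermitian) (h : (fromBlocks (P₁ ⊗ₖ Q₁) H H (P₀ ⊗ₖ Q₀)).PosSemidef) :
    (P₁ ⊗ₖ Q₀ + P₀ ⊗ₖ Q₁ - (2 : ℂ) • H).PosSemidef := by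
  obtain ⟨G, d, hG, hd, hG1, hG0⟩ := sim hP₀ hP₁
  obtain ⟨K, e, hK, he, hK1, hK0⟩ := sim hQ₀ hQ₁
  set L : Matrix (A × B) (A × B) ℂ := G⁻¹ ⊗ₖ K⁻¹ with hL
  set T : Matrix (A × B) (A × B) ℂ := G ⊗ₖ K with hT
  have hGi : G⁻¹ * G = 1 := nonsing_inv_mul G ((isUnit_iff_isUnit_det G).mp hG)
  have hKi : K⁻¹ * K = 1 := nonsing_inv_mul K ((isUnit_iff_isUnit_det K).mp hK)
  have hGi' : G * G⁻¹ = 1 := mul_nonsing_inv G ((isUnit_iff_isUnit_det G).mp hG)
  have hKi' : K * K⁻¹ = 1 := mul_nonsing_inv K ((isUnit_iff_isUnit_det K).mp hK)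
  have hLT : L * T = 1 := by
    rw [hL, hT, ← mul_kronecker_mul, hGi, hKi, one_kronecker_one]
  have hTL : T * L = 1 := by
    rw [hL, hT, ← mul_kronecker_mul, hGi', hKi', one_kronecker_one]
  have hLT' : Tᴴ * Lᴴ = 1 := by rw [← conjTranspose_mul, hLT, conjTranspose_one]
  have hTL' : Lᴴ * Tᴴ = 1 := by rw [← conjTranspose_mul, hTL, conjTranspose_one]
  have e11 : P₁ ⊗ₖ Q₁ = T * Tᴴ := by
    rw [hG1, hK1, hT, conjTranspose_kronecker, ← mul_kronecker_mul]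
  have e00 : P₀ ⊗ₖ Q₀ = T * (diagonal fun p : A × B => ((d p.1 * e p.2 : ℝ) : ℂ)) * Tᴴ := by
    rw [hG0, hK0, hT, conjTranspose_kronecker, mul_kronecker_mul, mul_kronecker_mul,
      diagonal_kronecker_diagonal]
    push_cast
    rfl
  have e10 : P₁ ⊗ₖ Q₀ + P₀ ⊗ₖ Q₁ =
      T * (diagonal fun p : A × B => ((d p.1 + e p.2 : ℝ) : ℂ)) * Tᴴ := by
    have i1 : P₁ ⊗ₖ Q₀ = T * (diagonal fun p : A × B => (e p.2 : ℂ)) * Tᴴ := by
      have : (diagonal fun p : A × B => (e p.2 : ℂ)) =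
          (1 : Matrix A A ℂ) ⊗ₖ (diagonal fun j => (e j : ℂ)) := by
        rw [← diagonal_one, diagonal_kronecker_diagonal]
        simp
      rw [this, hG1, hK0, hT, conjTranspose_kronecker, ← mul_kronecker_mul, ← mul_kronecker_mul,
        Matrix.mul_one]
    have i2 : P₀ ⊗ₖ Q₁ = T * (diagonal fun p : A × B => (d p.1 : ℂ)) * Tᴴ := by
      have : (diagonal fun p : A × B => (d p.1 : ℂ)) =
          (diagonal fun j => (d j : ℂ)) ⊗ₖ (1 : Matrix B B ℂ) := by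
        rw [← diagonal_one, diagonal_kronecker_diagonal]
        simp
      rw [this, hG0, hK1, hT, conjTranspose_kronecker, ← mul_kronecker_mul, ← mul_kronecker_mul,
        Matrix.mul_one]
    rw [i1, i2, ← Matrix.add_mul, ← Matrix.mul_add, diagonal_add]
    congr 3
    funext p
    push_cast
    ring
  have hH' : (L * H * Lᴴ).IsHermitian := by
    rw [IsHermitian, conjTranspose_mul, conjTranspose_mul, conjTranspose_conjTranspose, hH.eq,
      Matrix.mul_assoc]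
  have hb : (fromBlocks 1 (L * H * Lᴴ) (L * H * Lᴴ)
      (diagonal fun p : A × B => ((d p.1 * e p.2 : ℝ) : ℂ))).PosSemidef := by
    have h1 := h.mul_mul_conjTranspose_same (fromBlocks L 0 0 L)
    rw [fromBlocks_conjTranspose, fromBlocks_multiply, fromBlocks_multiply] at h1
    simp only [conjTranspose_zero, Matrix.mul_zero, Matrix.zero_mul, add_zero, zero_add] at h1
    have j1 : L * (P₁ ⊗ₖ Q₁) * Lᴴ = 1 := by
      rw [e11]
      calc L * (T * Tᴴ) * Lᴴ = (L * T) * (Tᴴ * Lᴴ) := by simp only [Matrix.mul_assoc]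
        _ = 1 := by rw [hLT, hLT', Matrix.one_mul]
    have j2 : L * (P₀ ⊗ₖ Q₀) * Lᴴ = diagonal fun p : A × B => ((d p.1 * e p.2 : ℝ) : ℂ) := by
      rw [e00]
      calc L * (T * (diagonal fun p : A × B => ((d p.1 * e p.2 : ℝ) : ℂ)) * Tᴴ) * Lᴴ =
          (L * T) * (diagonal fun p : A × B => ((d p.1 * e p.2 : ℝ) : ℂ)) * (Tᴴ * Lᴴ) := by
            simp only [Matrix.mul_assoc]
        _ = _ := by rw [hLT, hLT', Matrix.one_mul, Matrix.mul_one]
    rw [j1, j2] at h1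
    exact h1
  have h2 := (core_diag hH' hd he hb).mul_mul_conjTranspose_same T
  have h3 : T * (diagonal (fun p : A × B => ((d p.1 + e p.2 : ℝ) : ℂ)) -
      (2 : ℂ) • (L * H * Lᴴ)) * Tᴴ = P₁ ⊗ₖ Q₀ + P₀ ⊗ₖ Q₁ - (2 : ℂ) • H := by
    rw [e10, Matrix.mul_sub, Matrix.sub_mul, Matrix.mul_smul, Matrix.smul_mul]
    congr 2
    calc T * (L * H * Lᴴ) * Tᴴ = (T * L) * H * (Lᴴ * Tᴴ) := by simp only [Matrix.mul_assoc]
      _ = H := by rw [hTL, hTL', Matrix.one_mul, Matrix.mul_one]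
  rw [h3] at h2
  exact h2

/-- `tr (M X)` is nonnegative for positive semidefinite `M`, `X`. -/
theorem tr_nonneg {M X : Matrix C C ℂ} (hM : M.PosSemidef) (hX : X.PosSemidef) :
    0 ≤ (M * X).trace.re := by
  obtain ⟨S, hS⟩ := CStarAlgebra.nonneg_iff_eq_star_mul_self.mp hX.nonneg
  have hS' : X = Sᴴ * S := hS
  have h1 : (M * X).trace = (S * M * Sᴴ).trace := by
    rw [hS', ← Matrix.mul_assoc, trace_mul_comm, ← Matrix.mul_assoc]
  rw [h1]
  exact (Complex.le_def.mp (hM.mul_mul_conjTranspose_same S).trace_nonneg).1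

theorem core_lin {P₀ P₁ : Matrix A A ℂ} {Q₀ Q₁ : Matrix B B ℂ} {H : Matrix (A × B) (A × B) ℂ}
    (hP₀ : P₀.PosSemidef) (hP₁ : P₁.PosSemidef) (hQ₀ : Q₀.PosSemidef) (hQ₁ : Q₁.PosSemidef)
    (hH : H.IsHermitian) (h : (fromBlocks (P₁ ⊗ₖ Q₁) H H (P₀ ⊗ₖ Q₀)).PosSemidef)
    {M : Matrix (A × B) (A × B) ℂ} (hM : M.PosSemidef) :
    2 * (M * H).trace.re ≤ (M * (P₁ ⊗ₖ Q₀)).trace.re + (M * (P₀ ⊗ₖ Q₁)).trace.re := by
  -- perturbation of the four operators
  have key : ∀ ε : ℝ, 0 < ε → 2 * (M * H).trace.re ≤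
      (M * (P₁ ⊗ₖ Q₀)).trace.re + (M * (P₀ ⊗ₖ Q₁)).trace.re +
      ε * ((M * (P₁ ⊗ₖ 1)).trace.re + (M * (1 ⊗ₖ Q₀)).trace.re +
        (M * (P₀ ⊗ₖ 1)).trace.re + (M * (1 ⊗ₖ Q₁)).trace.re + ε * (2 * M.trace.re)) := by
    intro ε hε
    have hε1 : (((ε : ℂ)) • (1 : Matrix A A ℂ)).PosDef :=
      PosDef.one.smul (by exact_mod_cast hε)
    have hε2 : (((ε : ℂ)) • (1 : Matrix B B ℂ)).PosDef :=
      PosDef.one.smul (by exact_mod_cast hε)
    have hε0 : (0 : ℂ) ≤ (ε : ℂ) := by exact_mod_cast hε.le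
    have hexp : ∀ (P : Matrix A A ℂ) (Q : Matrix B B ℂ),
        (P + (ε : ℂ) • 1) ⊗ₖ (Q + (ε : ℂ) • 1) = P ⊗ₖ Q + ((ε : ℂ) • (P ⊗ₖ 1) +
          (ε : ℂ) • (1 ⊗ₖ Q) + (ε : ℂ) • ((ε : ℂ) • 1)) := by
      intro P Q
      rw [add_kronecker, kronecker_add, kronecker_add, smul_kronecker, smul_kronecker,
        kronecker_smul, kronecker_smul, one_kronecker_one]
      abel
    have hblk : (fromBlocks ((P₁ + (ε : ℂ) • 1) ⊗ₖ (Q₁ + (ε : ℂ) • 1)) H H
        ((P₀ + (ε : ℂ) • 1) ⊗ₖ (Q₀ + (ε : ℂ) • 1))).PosSemidef := by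
      rw [hexp, hexp]
      have hx : ∀ {P : Matrix A A ℂ} {Q : Matrix B B ℂ}, P.PosSemidef → Q.PosSemidef →
          ((ε : ℂ) • (P ⊗ₖ (1 : Matrix B B ℂ)) + (ε : ℂ) • ((1 : Matrix A A ℂ) ⊗ₖ Q) +
            (ε : ℂ) • ((ε : ℂ) • (1 : Matrix (A × B) (A × B) ℂ))).PosSemidef := by
        intro P Q hP hQ
        exact ((((hP.kronecker PosSemidef.one).smul hε0)).add
          ((PosSemidef.one.kronecker hQ).smul hε0)).add ((PosSemidef.one.smul hε0).smul hε0)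
      have hsum := h.add (show (fromBlocks
          ((ε : ℂ) • (P₁ ⊗ₖ (1 : Matrix B B ℂ)) + (ε : ℂ) • ((1 : Matrix A A ℂ) ⊗ₖ Q₁) +
            (ε : ℂ) • ((ε : ℂ) • (1 : Matrix (A × B) (A × B) ℂ))) 0 0
          ((ε : ℂ) • (P₀ ⊗ₖ (1 : Matrix B B ℂ)) + (ε : ℂ) • ((1 : Matrix A A ℂ) ⊗ₖ Q₀) +
            (ε : ℂ) • ((ε : ℂ) • (1 : Matrix (A × B) (A × B) ℂ)))).PosSemidef by
          have y1 := hx hP₁ hQ₁
          have y0 := hx hP₀ hQ₀
          obtain ⟨S, hS⟩ := CStarAlgebra.nonneg_iff_eq_star_mul_self.mp y1.nonneg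
          obtain ⟨R, hR⟩ := CStarAlgebra.nonneg_iff_eq_star_mul_self.mp y0.nonneg
          rw [hS, hR]
          have : fromBlocks (star S * S) 0 0 (star R * R) =
              (fromBlocks S 0 0 R)ᴴ * fromBlocks S 0 0 R := by
            rw [fromBlocks_conjTranspose, fromBlocks_multiply]
            simp only [conjTranspose_zero, Matrix.mul_zero, Matrix.zero_mul, add_zero, zero_add]
            rfl
          rw [this]
          exact posSemidef_conjTranspose_mul_self _)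
      rw [fromBlocks_add, add_zero] at hsum
      exact hsum
    have h1 := core_pd (hP₀.add hε1.posSemidef) (PosDef.posSemidef_add hP₁ hε1)
      (hQ₀.add hε2.posSemidef) (PosDef.posSemidef_add hQ₁ hε2) hH hblk
    have h2 := tr_nonneg hM h1
    rw [hexp, hexp] at h2
    simp only [Matrix.mul_sub, Matrix.mul_add, Matrix.mul_smul, trace_sub, trace_add, trace_smul,
      Complex.sub_re, Complex.add_re, smul_eq_mul, Matrix.mul_one, Complex.re_ofReal_mul] at h2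
    have h3 : ((2 : ℂ) * (M * H).trace).re = 2 * (M * H).trace.re := by
      simp [Complex.mul_re]
    rw [h3] at h2
    linarith
  refine le_of_forall_pos_lt_add ?_
  intro δ hδ
  set c : ℝ := (M * (P₁ ⊗ₖ 1)).trace.re + (M * (1 ⊗ₖ Q₀)).trace.re +
        (M * (P₀ ⊗ₖ 1)).trace.re + (M * (1 ⊗ₖ Q₁)).trace.re with hc
  set m : ℝ := 2 * M.trace.re with hm
  have hc0 : 0 ≤ c := by
    have a1 := tr_nonneg hM (hP₁.kronecker (PosSemidef.one (n := B) (R := ℂ)))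
    have a2 := tr_nonneg hM ((PosSemidef.one (n := A) (R := ℂ)).kronecker hQ₀)
    have a3 := tr_nonneg hM (hP₀.kronecker (PosSemidef.one (n := B) (R := ℂ)))
    have a4 := tr_nonneg hM ((PosSemidef.one (n := A) (R := ℂ)).kronecker hQ₁)
    linarith
  have hm0 : 0 ≤ m := by
    have := (Complex.le_def.mp hM.trace_nonneg).1
    rw [Complex.zero_re] at this
    linarith
  have hpos : 0 < c + m + 1 := by linarith
  have hmin : 0 < min 1 (δ / (2 * (c + m + 1))) := lt_min one_pos (by positivity)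
  have h5 := key _ hmin
  have h6 : min 1 (δ / (2 * (c + m + 1))) * (c + min 1 (δ / (2 * (c + m + 1))) * m) ≤ δ / 2 := by
    calc min 1 (δ / (2 * (c + m + 1))) * (c + min 1 (δ / (2 * (c + m + 1))) * m) ≤
        (δ / (2 * (c + m + 1))) * (c + m + 1) := by
          refine mul_le_mul (min_le_right _ _) ?_ (by positivity) (by positivity)
          have := mul_le_mul_of_nonneg_right (min_le_left 1 (δ / (2 * (c + m + 1)))) hm0
          linarith
      _ = δ / 2 := by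
        field_simp
  linarith

/-- The trace form, by scaling. -/
theorem core {P₀ P₁ : Matrix A A ℂ} {Q₀ Q₁ : Matrix B B ℂ} {H : Matrix (A × B) (A × B) ℂ}
    (hP₀ : P₀.PosSemidef) (hP₁ : P₁.PosSemidef) (hQ₀ : Q₀.PosSemidef) (hQ₁ : Q₁.PosSemidef)
    (hH : H.IsHermitian) (h : (fromBlocks (P₁ ⊗ₖ Q₁) H H (P₀ ⊗ₖ Q₀)).PosSemidef)
    {M : Matrix (A × B) (A × B) ℂ} (hM : M.PosSemidef) (h0 : 0 ≤ (M * H).trace.re) :
    (M * H).trace.re ^ 2 ≤ (M * (P₁ ⊗ₖ Q₀)).trace.re * (M * (P₀ ⊗ₖ Q₁)).trace.re := by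
  set z : ℝ := (M * H).trace.re with hz
  set x : ℝ := (M * (P₁ ⊗ₖ Q₀)).trace.re with hx
  set y : ℝ := (M * (P₀ ⊗ₖ Q₁)).trace.re with hy
  have hx0 : 0 ≤ x := tr_nonneg hM (hP₁.kronecker hQ₀)
  have hy0 : 0 ≤ y := tr_nonneg hM (hP₀.kronecker hQ₁)
  have key : ∀ t : ℝ, 0 < t → 2 * z ≤ t * t * x + (t * t)⁻¹ * y := by
    intro t ht
    have htt : 0 < t * t := mul_pos ht ht
    have ht0 : (0 : ℂ) ≤ ((t * t : ℝ) : ℂ) := by exact_mod_cast htt.le
    have ht1 : (0 : ℂ) ≤ (((t * t)⁻¹ : ℝ) : ℂ) := by exact_mod_cast (inv_pos.mpr htt).le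
    have h1 := core_lin (hP₀.smul ht1) (hP₁.smul ht0) hQ₀ hQ₁ hH (by
      have h2 := h.mul_mul_conjTranspose_same
        (fromBlocks ((t : ℂ) • (1 : Matrix (A × B) (A × B) ℂ)) 0 0
          (((t⁻¹ : ℝ) : ℂ) • (1 : Matrix (A × B) (A × B) ℂ)))
      rw [fromBlocks_conjTranspose, fromBlocks_multiply, fromBlocks_multiply] at h2
      simp only [conjTranspose_zero, Matrix.mul_zero, Matrix.zero_mul, add_zero, zero_add,
        conjTranspose_smul, conjTranspose_one, Matrix.mul_smul, Matrix.smul_mul, Matrix.mul_one,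
        Matrix.one_mul, smul_smul, Complex.star_def, Complex.conj_ofReal,
        ← Complex.ofReal_mul, mul_inv_cancel₀ ht.ne', inv_mul_cancel₀ ht.ne',
        Complex.ofReal_one, one_smul] at h2
      rw [smul_kronecker, smul_kronecker]
      have e1 : (t * t)⁻¹ = t⁻¹ * t⁻¹ := mul_inv t t
      rw [e1]
      exact h2) hM
    rw [smul_kronecker, smul_kronecker, Matrix.mul_smul, Matrix.mul_smul, trace_smul, trace_smul,
      smul_eq_mul, smul_eq_mul, Complex.re_ofReal_mul, Complex.re_ofReal_mul] at h1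
    exact h1
  have hdisc : ∀ s : ℝ, 0 ≤ x * (s * s) + (-(2 * z)) * s + y := by
    intro s
    rcases le_or_gt s 0 with hs | hs
    · have h2 : 0 ≤ x * (s * s) := mul_nonneg hx0 (mul_self_nonneg s)
      have h3 : 0 ≤ (-(2 * z)) * s := mul_nonneg_of_nonpos_of_nonpos (by linarith) hs
      linarith
    · have h2 := key (√s) (Real.sqrt_pos.mpr hs)
      rw [Real.mul_self_sqrt hs.le] at h2
      have h3 := mul_le_mul_of_nonneg_right h2 hs.le
      have h4 : (s * x + s⁻¹ * y) * s = x * (s * s) + y := by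
        field_simp
      rw [h4] at h3
      linarith
  have h5 := discrim_le_zero hdisc
  rw [discrim] at h5
  nlinarith

end Vale.Agent.P372.Swap
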