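import Vale.Agent.P372.Swap.Link2

open Matrix Kronecker
open scoped ComplexOrder MatrixOrder

set_option linter.unusedSectionVars false
set_option linter.unusedSimpArgs false

namespace Vale.Agent.P372.Swap

variable {A B A' B' : Type} [Fintype A] [DecidableEq A] [Fintype B] [DecidableEq B]
  [Fintype A'] [DecidableEq A'] [Fintype B'] [DecidableEq B']

/-- A block matrix built from a contraction. -/
theorem contr_blocks {I : Type} [Fintype I] [DecidableEq I] {W : Matrix I I ℂ} (hW : Contr W)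
    (P Q : Matrix I I ℂ) :
    (fromBlocks (Qᴴ * Q) (Qᴴ * W * P) (Pᴴ * Wᴴ * Q) (Pᴴ * P)).PosSemidef := by
  have h1 : (fromBlocks (1 : Matrix I I ℂ) W Wᴴ 1).PosSemidef := by
    have h2 : (fromBlocks (1 : Matrix I I ℂ) W Wᴴ 1) =
        (fromBlocks (1 : Matrix I I ℂ) W 0 0)ᴴ * (fromBlocks (1 : Matrix I I ℂ) W 0 0) +
          fromBlocks 0 0 0 (1 - Wᴴ * W) := by
      rw [fromBlocks_conjTranspose, fromBlocks_multiply, fromBlocks_add]
      simp only [conjTranspose_one, conjTranspose_zero, Matrix.zero_mul, Matrix.mul_zero, add_zero,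
        Matrix.one_mul, Matrix.mul_one, add_sub_cancel]
    rw [h2]
    refine (posSemidef_conjTranspose_mul_self _).add ?_
    obtain ⟨R, hR⟩ := exists_eq_conjTranspose_mul_self hW.2
    have h3 : fromBlocks (0 : Matrix I I ℂ) 0 0 (1 - Wᴴ * W) =
        (fromBlocks (0 : Matrix I I ℂ) 0 0 R)ᴴ * (fromBlocks (0 : Matrix I I ℂ) 0 0 R) := by
      rw [fromBlocks_conjTranspose, fromBlocks_multiply, hR]
      simp only [conjTranspose_zero, Matrix.zero_mul, Matrix.mul_zero, add_zero, zero_add]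
    rw [h3]
    exact posSemidef_conjTranspose_mul_self _
  have h4 := h1.conjTranspose_mul_mul_same (fromBlocks Q 0 0 P)
  have h5 : (fromBlocks Q 0 0 P)ᴴ * fromBlocks (1 : Matrix I I ℂ) W Wᴴ 1 * fromBlocks Q 0 0 P =
      fromBlocks (Qᴴ * Q) (Qᴴ * W * P) (Pᴴ * Wᴴ * Q) (Pᴴ * P) := by
    rw [fromBlocks_conjTranspose, fromBlocks_multiply, fromBlocks_multiply]
    simp only [conjTranspose_zero, Matrix.zero_mul, Matrix.mul_zero, add_zero, zero_add,
      Matrix.mul_one]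
  rwa [h5] at h4

theorem F_conjTranspose {s : Matrix (A × A') (A × A') ℂ} {t : Matrix (B × B') (B × B') ℂ}
    (hs : s.PosSemidef) (ht : t.PosSemidef) (Z : Matrix (A × B) (A × B) ℂ) :
    F s t Zᴴ = (F s t Z)ᴴ := by
  obtain ⟨G, hG⟩ := exists_kraus hs
  obtain ⟨H, hH⟩ := exists_kraus ht
  rw [F_eq_sum hG hH, F_eq_sum hG hH, conjTranspose_sum]
  refine Finset.sum_congr rfl fun m _ => ?_
  rw [conjTranspose_mul, conjTranspose_mul, conjTranspose_conjTranspose, Matrix.mul_assoc]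

theorem trace_mul_conj_re {I : Type} [Fintype I] {M Z : Matrix I I ℂ}
    (hM : M.IsHermitian) : (M * Zᴴ).trace.re = (M * Z).trace.re := by
  have h : (M * Zᴴ).trace = star (M * Z).trace := by
    rw [← trace_conjTranspose, conjTranspose_mul, hM.eq, trace_mul_comm]
  rw [h, Complex.star_def, Complex.conj_re]

/-- The inequality for one copy. -/
theorem ineq (core : ∀ {P0 P1 : Matrix A' A' ℂ} {Q0 Q1 : Matrix B' B' ℂ}
      {H : Matrix (A' × B') (A' × B') ℂ}, P0.PosSemidef → P1.PosSemidef → Q0.PosSemidef →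
      Q1.PosSemidef → H.IsHermitian → (fromBlocks (P1 ⊗ₖ Q1) H H (P0 ⊗ₖ Q0)).PosSemidef →
      ∀ {M : Matrix (A' × B') (A' × B') ℂ}, M.PosSemidef →
      (M * H).trace.re ^ 2 ≤ (M * (P1 ⊗ₖ Q0)).trace.re * (M * (P0 ⊗ₖ Q1)).trace.re)
    {s : Matrix (A × A') (A × A') ℂ} {t : Matrix (B × B') (B × B') ℂ}
    {M : Matrix (A' × B') (A' × B') ℂ} (hs : s.PosSemidef) (ht : t.PosSemidef)
    (hs' : (pTrans s).PosSemidef) (ht' : (pTrans t).PosSemidef) (hM : M.PosSemidef)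
    (X₀ X₁ : Matrix A A ℂ) (Y₀ Y₁ : Matrix B B ℂ) :
    traceNorm ((X₀ ⊗ₖ Y₀) * link s t M * (X₁ ⊗ₖ Y₁)ᴴ) ^ 2 ≤
      weight (link s t M) X₀ Y₁ * weight (link s t M) X₁ Y₀ := by
  obtain ⟨W, hW, hWX⟩ := traceNorm_exists ((X₀ ⊗ₖ Y₀) * link s t M * (X₁ ⊗ₖ Y₁)ᴴ)
  have h1 := contr_blocks hW (X₀ ⊗ₖ Y₀) (X₁ ⊗ₖ Y₁)
  have h2 := F_blocks_herm hs ht hs' ht' h1
  have e0 : ∀ (X : Matrix A A ℂ) (Y : Matrix B B ℂ),
      (X ⊗ₖ Y)ᴴ * (X ⊗ₖ Y) = (Xᴴ * X) ⊗ₖ (Yᴴ * Y) := by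
    intro X Y
    rw [conjTranspose_kronecker, ← mul_kronecker_mul]
  rw [e0, e0, F_kron, F_kron] at h2
  set C : Matrix (A × B) (A × B) ℂ := (X₁ ⊗ₖ Y₁)ᴴ * W * (X₀ ⊗ₖ Y₀) with hC
  have hC' : (X₀ ⊗ₖ Y₀)ᴴ * Wᴴ * (X₁ ⊗ₖ Y₁) = Cᴴ := by
    rw [hC, conjTranspose_mul, conjTranspose_mul, conjTranspose_conjTranspose, Matrix.mul_assoc]
  rw [hC', F_conjTranspose hs ht] at h2
  set H : Matrix (A' × B') (A' × B') ℂ := (1 / 2 : ℂ) • (F s t C + (F s t C)ᴴ) with hH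
  have hHh : H.IsHermitian := by
    have e : star (1 / 2 : ℂ) = 1 / 2 := by
      have e' : (1 / 2 : ℂ) = ((1 / 2 : ℝ) : ℂ) := by norm_num
      rw [e', Complex.star_def, Complex.conj_ofReal]
    rw [IsHermitian, hH, conjTranspose_smul, conjTranspose_add, conjTranspose_conjTranspose,
      add_comm, e]
  have hself : ∀ {I : Type} [Fintype I] [DecidableEq I] (X : Matrix I I ℂ),
      (Xᴴ * X).PosSemidef := fun X => posSemidef_conjTranspose_mul_self X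
  have h3 := core (Fs_posSemidef hs (hself X₀)) (Fs_posSemidef hs (hself X₁))
    (Fs_posSemidef ht (hself Y₀)) (Fs_posSemidef ht (hself Y₁)) hHh h2 hM
  have h4 : (M * H).trace.re = traceNorm ((X₀ ⊗ₖ Y₀) * link s t M * (X₁ ⊗ₖ Y₁)ᴴ) := by
    have h5 : (M * F s t C).trace = (traceNorm ((X₀ ⊗ₖ Y₀) * link s t M * (X₁ ⊗ₖ Y₁)ᴴ) : ℂ) := by
      rw [← trace_link_mul, ← hWX, hC]
      calc (link s t M * ((X₁ ⊗ₖ Y₁)ᴴ * W * (X₀ ⊗ₖ Y₀))).trace
          = ((link s t M * (X₁ ⊗ₖ Y₁)ᴴ) * (W * (X₀ ⊗ₖ Y₀))).trace := by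
            congr 1
            noncomm_ring
        _ = ((W * (X₀ ⊗ₖ Y₀)) * (link s t M * (X₁ ⊗ₖ Y₁)ᴴ)).trace := trace_mul_comm _ _
        _ = _ := by
            congr 1
            noncomm_ring
    rw [hH, Matrix.mul_smul, trace_smul, Matrix.mul_add, trace_add, smul_eq_mul]
    have h6 := trace_mul_conj_re (Z := F s t C) hM.1
    rw [h5, Complex.ofReal_re] at h6
    have h7 : ∀ z w : ℂ, ((1 / 2 : ℂ) * (z + w)).re = (z.re + w.re) / 2 := by
      intro z w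
      have : (1 / 2 : ℂ) * (z + w) = ((1 / 2 : ℝ) : ℂ) * (z + w) := by norm_num
      rw [this, Complex.re_ofReal_mul, Complex.add_re]
      ring
    rw [h7, h6, h5, Complex.ofReal_re]
    ring
  rw [h4] at h3
  refine h3.trans (le_of_eq ?_)
  have h8 : ∀ (X : Matrix A A ℂ) (Y : Matrix B B ℂ),
      (M * (Fs s (Xᴴ * X) ⊗ₖ Fs t (Yᴴ * Y))).trace.re = weight (link s t M) X Y := by
    intro X Y
    rw [← F_kron, ← trace_link_mul, Near.weight_eq_trace]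
  rw [h8, h8, mul_comm]

end Vale.Agent.P372.Swap
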