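import Vale.Agent.P372.Bdl.B1

open Matrix Kronecker
open scoped ComplexOrder MatrixOrder

set_option linter.unusedSectionVars false
set_option linter.unusedSimpArgs false

namespace Vale.Agent.P372.Swap

section one

variable {I : Type} [Fintype I] [DecidableEq I]

/-- `K² ≤ D²`, `K` Hermitian and `D ≥ 0` imply `K ≤ D`. -/
theorem le_of_sq_le {K D : Matrix I I ℂ} (hK : K.IsHermitian) (hD : D.PosSemidef)
    (h : (D * D - K * K).PosSemidef) : (D - K).PosSemidef := by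
  have hN : (D - K).IsHermitian := hD.1.sub hK
  rw [hN.posSemidef_iff_eigenvalues_nonneg]
  intro i
  rw [Pi.zero_apply]
  by_contra hneg
  push Not at hneg
  set μ : ℝ := hN.eigenvalues i with hμ
  set v : I → ℂ := (hN.eigenvectorBasis i : EuclideanSpace ℂ I).ofLp with hv
  have h1 : (D - K) *ᵥ v = (μ : ℂ) • v := by
    have := hN.mulVec_eigenvectorBasis i
    simpa using this
  have hv1 : star v ⬝ᵥ v = 1 := by
    have h2 := hN.eigenvectorBasis.orthonormal.1 i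
    have h3 : (inner ℂ (hN.eigenvectorBasis i) (hN.eigenvectorBasis i) : ℂ) = 1 := by
      rw [inner_self_eq_norm_sq_to_K, h2]
      norm_num
    rw [← h3, EuclideanSpace.inner_eq_star_dotProduct, dotProduct_comm]
  have h2 : K *ᵥ v = D *ᵥ v - (μ : ℂ) • v := by
    rw [← h1, Matrix.sub_mulVec]
    abel
  have h3 : star v ⬝ᵥ (K * K) *ᵥ v = star (K *ᵥ v) ⬝ᵥ (K *ᵥ v) := by
    rw [← Matrix.mulVec_mulVec, Matrix.dotProduct_mulVec, star_mulVec, hK.eq]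
  have h4 : star v ⬝ᵥ (D * D) *ᵥ v = star (D *ᵥ v) ⬝ᵥ (D *ᵥ v) := by
    rw [← Matrix.mulVec_mulVec, Matrix.dotProduct_mulVec, star_mulVec, hD.1.eq]
  have h5 := h.dotProduct_mulVec_nonneg v
  rw [Matrix.sub_mulVec, dotProduct_sub, h3, h4, h2] at h5
  have h6 : star (D *ᵥ v - (μ : ℂ) • v) ⬝ᵥ (D *ᵥ v - (μ : ℂ) • v) =
      star (D *ᵥ v) ⬝ᵥ (D *ᵥ v) - (μ : ℂ) * (star (D *ᵥ v) ⬝ᵥ v) -
        (μ : ℂ) * (star v ⬝ᵥ (D *ᵥ v)) + (μ : ℂ) * (μ : ℂ) * (star v ⬝ᵥ v) := by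
    rw [star_sub, star_smul, sub_dotProduct, dotProduct_sub, dotProduct_sub, smul_dotProduct,
      smul_dotProduct, dotProduct_smul, dotProduct_smul, Complex.star_def, Complex.conj_ofReal,
      smul_eq_mul, smul_eq_mul, smul_eq_mul, smul_eq_mul]
    ring
  have h7 : star (D *ᵥ v) ⬝ᵥ v = star v ⬝ᵥ (D *ᵥ v) := by
    rw [star_mulVec, hD.1.eq, ← Matrix.dotProduct_mulVec]
  have h8 := hD.dotProduct_mulVec_nonneg v
  rw [h6, h7, hv1] at h5
  set x : ℂ := star v ⬝ᵥ (D *ᵥ v) with hx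
  have h9 : star (D *ᵥ v) ⬝ᵥ (D *ᵥ v) - (star (D *ᵥ v) ⬝ᵥ (D *ᵥ v) - (μ : ℂ) * x -
      (μ : ℂ) * x + (μ : ℂ) * (μ : ℂ) * 1) = (2 * μ : ℝ) * x - ((μ * μ : ℝ) : ℂ) := by
    push_cast
    ring
  rw [h9] at h5
  have h10 := (Complex.le_def.mp h5).1
  have h11 := (Complex.le_def.mp h8).1
  rw [Complex.sub_re, Complex.re_ofReal_mul, Complex.ofReal_re, Complex.zero_re] at h10
  rw [Complex.zero_re] at h11
  nlinarith [mul_nonneg h11 (neg_nonneg.mpr hneg.le), mul_pos_of_neg_of_neg hneg hneg]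

/-- Simultaneous diagonalisation. -/
theorem simdiag {P1 P0 : Matrix I I ℂ} (h1 : P1.PosDef) (h0 : P0.PosSemidef) :
    ∃ (G Gi : Matrix I I ℂ) (d : I → ℝ), G * Gi = 1 ∧ Gi * G = 1 ∧ (∀ i, 0 ≤ d i) ∧
      P1 = G * Gᴴ ∧ P0 = G * diagonal (fun i => (d i : ℂ)) * Gᴴ := by
  obtain ⟨R, hR⟩ := exists_eq_conjTranspose_mul_self h1.posSemidef
  have hdet : IsUnit R.det := by
    have h2 : IsUnit P1.det := h1.det_pos.ne'.isUnit
    rw [hR, det_mul] at h2
    exact isUnit_of_mul_isUnit_right h2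
  set G₀ : Matrix I I ℂ := Rᴴ with hG₀
  set Gi₀ : Matrix I I ℂ := (R⁻¹)ᴴ with hGi₀
  have e1 : G₀ * Gi₀ = 1 := by
    rw [hG₀, hGi₀, ← conjTranspose_mul, nonsing_inv_mul _ hdet, conjTranspose_one]
  have e2 : Gi₀ * G₀ = 1 := by
    rw [hG₀, hGi₀, ← conjTranspose_mul, mul_nonsing_inv _ hdet, conjTranspose_one]
  have e1' : Gi₀ᴴ * G₀ᴴ = 1 := by rw [← conjTranspose_mul, e1, conjTranspose_one]
  have e3 : P1 = G₀ * G₀ᴴ := by rw [hG₀, conjTranspose_conjTranspose, hR]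
  have h2 : (Gi₀ * P0 * Gi₀ᴴ).PosSemidef := h0.mul_mul_conjTranspose_same Gi₀
  set U : Matrix I I ℂ := (h2.1.eigenvectorUnitary : Matrix I I ℂ) with hU
  have hU1 : U * Uᴴ = 1 := eigU_mul h2.1
  have hU2 : Uᴴ * U = 1 := eigU_mul' h2.1
  have hs := spectral_eq h2.1
  refine ⟨G₀ * U, Uᴴ * Gi₀, h2.1.eigenvalues, ?_, ?_, h2.eigenvalues_nonneg, ?_, ?_⟩
  · calc G₀ * U * (Uᴴ * Gi₀) = G₀ * (U * Uᴴ) * Gi₀ := by noncomm_ring
      _ = 1 := by rw [hU1, Matrix.mul_one, e1]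
  · calc Uᴴ * Gi₀ * (G₀ * U) = Uᴴ * (Gi₀ * G₀) * U := by noncomm_ring
      _ = 1 := by rw [e2, Matrix.mul_one, hU2]
  · rw [conjTranspose_mul]
    calc P1 = G₀ * 1 * G₀ᴴ := by rw [Matrix.mul_one, e3]
      _ = G₀ * U * (Uᴴ * G₀ᴴ) := by rw [← hU1]; noncomm_ring
  · rw [conjTranspose_mul]
    calc P0 = (G₀ * Gi₀) * P0 * (Gi₀ᴴ * G₀ᴴ) := by rw [e1, e1', Matrix.one_mul, Matrix.mul_one]
      _ = G₀ * (Gi₀ * P0 * Gi₀ᴴ) * G₀ᴴ := by noncomm_ring
      _ = G₀ * (U * diagonal (fun i => (h2.1.eigenvalues i : ℂ)) * Uᴴ) * G₀ᴴ := by rw [← hs]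
      _ = _ := by noncomm_ring

/-- Block with identity corner: `[[1, H], [H, D²]] ≥ 0` implies `H ≤ D`. -/
theorem block_one_le {H D : Matrix I I ℂ} (hH : H.IsHermitian) (hD : D.PosSemidef)
    (h : (fromBlocks 1 H H (D * D)).PosSemidef) : (D - H).PosSemidef := by
  refine le_of_sq_le hH hD ?_
  have h1 := h.conjTranspose_mul_mul_same (fromBlocks (-H) (0 : Matrix I I ℂ) 1 0)
  have e : (fromBlocks (-H) (0 : Matrix I I ℂ) 1 0)ᴴ * fromBlocks 1 H H (D * D) *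
      fromBlocks (-H) (0 : Matrix I I ℂ) 1 0 = fromBlocks (D * D - H * H) 0 0 0 := by
    rw [fromBlocks_conjTranspose, fromBlocks_multiply, fromBlocks_multiply, conjTranspose_neg,
      hH.eq]
    simp only [conjTranspose_zero, conjTranspose_one, Matrix.zero_mul, Matrix.mul_zero, add_zero,
      zero_add, Matrix.one_mul, Matrix.mul_one]
    congr 1
    noncomm_ring
  rw [e] at h1
  have h2 := h1.submatrix (Sum.inl : I → I ⊕ I)
  exact h2

end one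

section two

variable {A B : Type} [Fintype A] [DecidableEq A] [Fintype B] [DecidableEq B]

theorem half_sub_psd {P0 P1 : Matrix A A ℂ} {Q0 Q1 : Matrix B B ℂ} {H : Matrix (A × B) (A × B) ℂ}
    (hP1 : P1.PosDef) (hP0 : P0.PosSemidef) (hQ1 : Q1.PosDef) (hQ0 : Q0.PosSemidef)
    (hH : H.IsHermitian) (h : (fromBlocks (P1 ⊗ₖ Q1) H H (P0 ⊗ₖ Q0)).PosSemidef) :
    ((P1 ⊗ₖ Q0 + P0 ⊗ₖ Q1) - (2 : ℂ) • H).PosSemidef := by
  obtain ⟨G, Gi, d, g1, g2, hd, e1, e0⟩ := simdiag hP1 hP0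
  obtain ⟨K, Ki, e, k1, k2, he, f1, f0⟩ := simdiag hQ1 hQ0
  set T : Matrix (A × B) (A × B) ℂ := G ⊗ₖ K with hT
  set Ti : Matrix (A × B) (A × B) ℂ := Gi ⊗ₖ Ki with hTi
  have t1 : T * Ti = 1 := by rw [hT, hTi, ← mul_kronecker_mul, g1, k1, one_kronecker_one]
  have t2 : Ti * T = 1 := by rw [hT, hTi, ← mul_kronecker_mul, g2, k2, one_kronecker_one]
  have t1' : Tiᴴ * Tᴴ = 1 := by rw [← conjTranspose_mul, t1, conjTranspose_one]
  have t2' : Tᴴ * Tiᴴ = 1 := by rw [← conjTranspose_mul, t2, conjTranspose_one]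
  set D : Matrix (A × B) (A × B) ℂ := diagonal fun p => ((√(d p.1 * e p.2) : ℝ) : ℂ) with hDdef
  have c1 : P1 ⊗ₖ Q1 = T * Tᴴ := by
    rw [e1, f1, hT, conjTranspose_kronecker, ← mul_kronecker_mul]
  have c0 : P0 ⊗ₖ Q0 = T * (D * D) * Tᴴ := by
    have : D * D = diagonal (fun i => (d i : ℂ)) ⊗ₖ diagonal (fun i => (e i : ℂ)) := by
      rw [hDdef, diagonal_mul_diagonal, diagonal_kronecker_diagonal]
      congr 1
      funext p
      rw [← Complex.ofReal_mul, Real.mul_self_sqrt (mul_nonneg (hd _) (he _)),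
        Complex.ofReal_mul]
    rw [this, e0, f0, hT, conjTranspose_kronecker, ← mul_kronecker_mul, ← mul_kronecker_mul]
  have c2 : P1 ⊗ₖ Q0 + P0 ⊗ₖ Q1 = T * (diagonal fun p => ((d p.1 + e p.2 : ℝ) : ℂ)) * Tᴴ := by
    have : (diagonal fun p : A × B => ((d p.1 + e p.2 : ℝ) : ℂ)) =
        (1 : Matrix A A ℂ) ⊗ₖ diagonal (fun i => (e i : ℂ)) +
          diagonal (fun i => (d i : ℂ)) ⊗ₖ (1 : Matrix B B ℂ) := by
      rw [← diagonal_one, ← diagonal_one, diagonal_kronecker_diagonal,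
        diagonal_kronecker_diagonal, diagonal_add]
      congr 1
      funext p
      push_cast
      ring
    rw [this, Matrix.mul_add, Matrix.add_mul, hT, conjTranspose_kronecker, ← mul_kronecker_mul,
      ← mul_kronecker_mul, ← mul_kronecker_mul, ← mul_kronecker_mul, Matrix.mul_one,
      Matrix.mul_one, ← e1, ← f0, ← e0, ← f1]
  set H' : Matrix (A × B) (A × B) ℂ := Ti * H * Tiᴴ with hH'
  have hH'h : H'.IsHermitian := by
    rw [IsHermitian, hH', conjTranspose_mul, conjTranspose_mul, conjTranspose_conjTranspose,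
      hH.eq, Matrix.mul_assoc]
  have c3 : H = T * H' * Tᴴ := by
    rw [hH']
    calc H = (T * Ti) * H * (Tiᴴ * Tᴴ) := by rw [t1, t1', Matrix.one_mul, Matrix.mul_one]
      _ = _ := by noncomm_ring
  have hblk : (fromBlocks 1 H' H' (D * D)).PosSemidef := by
    have h1 := h.mul_mul_conjTranspose_same (fromBlocks Ti 0 0 Ti)
    have h2 : fromBlocks Ti 0 0 Ti * fromBlocks (P1 ⊗ₖ Q1) H H (P0 ⊗ₖ Q0) *
        (fromBlocks Ti 0 0 Ti)ᴴ = fromBlocks 1 H' H' (D * D) := by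
      rw [fromBlocks_conjTranspose, fromBlocks_multiply, fromBlocks_multiply]
      simp only [conjTranspose_zero, Matrix.zero_mul, Matrix.mul_zero, add_zero, zero_add]
      rw [c1, c0, ← hH']
      congr 1
      · calc Ti * (T * Tᴴ) * Tiᴴ = (Ti * T) * (Tᴴ * Tiᴴ) := by noncomm_ring
          _ = 1 := by rw [t2, t2', Matrix.mul_one]
      · calc Ti * (T * (D * D) * Tᴴ) * Tiᴴ = (Ti * T) * (D * D) * (Tᴴ * Tiᴴ) := by noncomm_ring
          _ = D * D := by rw [t2, t2', Matrix.one_mul, Matrix.mul_one]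
    rwa [h2] at h1
  have hDp : D.PosSemidef := by
    rw [hDdef, posSemidef_diagonal_iff]
    intro p
    exact Complex.zero_le_real.mpr (Real.sqrt_nonneg _)
  have h3 := block_one_le hH'h hDp hblk
  have h4 : ((diagonal fun p : A × B => ((d p.1 + e p.2 : ℝ) : ℂ)) - (2 : ℂ) • H').PosSemidef := by
    have h5 : ((diagonal fun p : A × B => ((d p.1 + e p.2 : ℝ) : ℂ)) - (2 : ℂ) • D).PosSemidef := by
      have : (diagonal fun p : A × B => ((d p.1 + e p.2 : ℝ) : ℂ)) - (2 : ℂ) • D =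
          diagonal fun p : A × B => ((d p.1 + e p.2 - 2 * √(d p.1 * e p.2) : ℝ) : ℂ) := by
        rw [hDdef, ← diagonal_smul, diagonal_sub]
        congr 1
        funext p
        simp only [Pi.smul_apply, smul_eq_mul]
        push_cast
        ring
      rw [this, posSemidef_diagonal_iff]
      intro p
      rw [Complex.zero_le_real, Real.sqrt_mul (hd _)]
      have h6 := sq_nonneg (√(d p.1) - √(e p.2))
      have h7 := Real.sq_sqrt (hd p.1)
      have h8 := Real.sq_sqrt (he p.2)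
      nlinarith
    have h6 := h5.add (h3.smul (a := (2 : ℂ)) (by rw [Complex.le_def]; norm_num))
    have h7 : (diagonal fun p : A × B => ((d p.1 + e p.2 : ℝ) : ℂ)) - (2 : ℂ) • D +
        (2 : ℂ) • (D - H') =
        (diagonal fun p : A × B => ((d p.1 + e p.2 : ℝ) : ℂ)) - (2 : ℂ) • H' := by
      rw [smul_sub]
      abel
    rwa [h7] at h6
  have h8 := h4.mul_mul_conjTranspose_same T
  have h9 : T * ((diagonal fun p : A × B => ((d p.1 + e p.2 : ℝ) : ℂ)) - (2 : ℂ) • H') * Tᴴ =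
      (P1 ⊗ₖ Q0 + P0 ⊗ₖ Q1) - (2 : ℂ) • H := by
    rw [Matrix.mul_sub, Matrix.sub_mul, ← c2, Matrix.mul_smul, Matrix.smul_mul, ← c3]
  rwa [h9] at h8

theorem trace_mul_psd {I : Type} [Fintype I] [DecidableEq I] {M N : Matrix I I ℂ}
    (hM : M.PosSemidef) (hN : N.PosSemidef) : 0 ≤ (M * N).trace.re := by
  obtain ⟨R, hR⟩ := exists_eq_conjTranspose_mul_self hM
  have h : (M * N).trace = (R * N * Rᴴ).trace := by
    rw [hR, Matrix.mul_assoc, trace_mul_comm]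
  rw [h]
  exact (Complex.le_def.mp (hN.mul_mul_conjTranspose_same R).trace_nonneg).1

theorem lin_pd {P0 P1 : Matrix A A ℂ} {Q0 Q1 : Matrix B B ℂ} {H : Matrix (A × B) (A × B) ℂ}
    (hP1 : P1.PosDef) (hP0 : P0.PosSemidef) (hQ1 : Q1.PosDef) (hQ0 : Q0.PosSemidef)
    (hH : H.IsHermitian) (h : (fromBlocks (P1 ⊗ₖ Q1) H H (P0 ⊗ₖ Q0)).PosSemidef)
    {M : Matrix (A × B) (A × B) ℂ} (hM : M.PosSemidef) :
    2 * (M * H).trace.re ≤ (M * (P1 ⊗ₖ Q0)).trace.re + (M * (P0 ⊗ₖ Q1)).trace.re := by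
  have h1 := trace_mul_psd hM (half_sub_psd hP1 hP0 hQ1 hQ0 hH h)
  rw [Matrix.mul_sub, trace_sub, Matrix.mul_add, trace_add, Matrix.mul_smul, trace_smul,
    Complex.sub_re, Complex.add_re, smul_eq_mul] at h1
  have h2 : ((2 : ℂ) * (M * H).trace).re = 2 * (M * H).trace.re := by
    have : (2 : ℂ) = ((2 : ℝ) : ℂ) := by norm_num
    rw [this, Complex.re_ofReal_mul]
  rw [h2] at h1
  linarith

theorem block_add_left {I : Type} [Fintype I] [DecidableEq I] {X Y C D E : Matrix I I ℂ}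
    (h : (fromBlocks X C D Y).PosSemidef) (hE : E.PosSemidef) :
    (fromBlocks (X + E) C D Y).PosSemidef := by
  obtain ⟨R, hR⟩ := exists_eq_conjTranspose_mul_self hE
  have h1 : (fromBlocks E 0 0 (0 : Matrix I I ℂ)).PosSemidef := by
    have e : fromBlocks E 0 0 (0 : Matrix I I ℂ) =
        (fromBlocks R 0 0 (0 : Matrix I I ℂ))ᴴ * fromBlocks R 0 0 (0 : Matrix I I ℂ) := by
      rw [fromBlocks_conjTranspose, fromBlocks_multiply, hR]
      simp only [conjTranspose_zero, Matrix.zero_mul, Matrix.mul_zero, add_zero]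
    rw [e]
    exact posSemidef_conjTranspose_mul_self _
  have h2 := h.add h1
  rwa [fromBlocks_add, add_zero, add_zero, add_zero] at h2

theorem lin_psd {P0 P1 : Matrix A A ℂ} {Q0 Q1 : Matrix B B ℂ} {H : Matrix (A × B) (A × B) ℂ}
    (hP1 : P1.PosSemidef) (hP0 : P0.PosSemidef) (hQ1 : Q1.PosSemidef) (hQ0 : Q0.PosSemidef)
    (hH : H.IsHermitian) (h : (fromBlocks (P1 ⊗ₖ Q1) H H (P0 ⊗ₖ Q0)).PosSemidef)
    {M : Matrix (A × B) (A × B) ℂ} (hM : M.PosSemidef) :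
    2 * (M * H).trace.re ≤ (M * (P1 ⊗ₖ Q0)).trace.re + (M * (P0 ⊗ₖ Q1)).trace.re := by
  have key : ∀ ε : ℝ, 0 < ε → 2 * (M * H).trace.re ≤
      (M * (P1 ⊗ₖ Q0)).trace.re + (M * (P0 ⊗ₖ Q1)).trace.re +
        ε * ((M * (1 ⊗ₖ Q0)).trace.re + (M * (P0 ⊗ₖ 1)).trace.re) := by
    intro ε hε
    have hεc : (0 : ℂ) < (ε : ℂ) := by exact_mod_cast hε
    have hA : ((ε : ℂ) • (1 : Matrix A A ℂ)).PosDef := PosDef.one.smul hεc
    have hB : ((ε : ℂ) • (1 : Matrix B B ℂ)).PosDef := PosDef.one.smul hεc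
    have hPA : (P1 + (ε : ℂ) • 1).PosDef := PosDef.posSemidef_add hP1 hA
    have hQB : (Q1 + (ε : ℂ) • 1).PosDef := PosDef.posSemidef_add hQ1 hB
    have h1 : (fromBlocks ((P1 + (ε : ℂ) • 1) ⊗ₖ (Q1 + (ε : ℂ) • 1)) H H
        (P0 ⊗ₖ Q0)).PosSemidef := by
      have e : (P1 + (ε : ℂ) • 1) ⊗ₖ (Q1 + (ε : ℂ) • 1) = P1 ⊗ₖ Q1 +
          (P1 ⊗ₖ ((ε : ℂ) • (1 : Matrix B B ℂ)) +
            ((ε : ℂ) • (1 : Matrix A A ℂ)) ⊗ₖ (Q1 + (ε : ℂ) • 1)) := by
        rw [add_kronecker, kronecker_add]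
        abel
      rw [e]
      exact block_add_left h ((hP1.kronecker hB.posSemidef).add
        (hA.posSemidef.kronecker hQB.posSemidef))
    have h2 := lin_pd hPA hP0 hQB hQ0 hH h1 hM
    rw [add_kronecker, kronecker_add, Matrix.mul_add, Matrix.mul_add, trace_add, trace_add,
      Complex.add_re, Complex.add_re, smul_kronecker, kronecker_smul, Matrix.mul_smul,
      Matrix.mul_smul, trace_smul, trace_smul, smul_eq_mul, smul_eq_mul, Complex.re_ofReal_mul,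
      Complex.re_ofReal_mul] at h2
    linarith
  set c : ℝ := (M * ((1 : Matrix A A ℂ) ⊗ₖ Q0)).trace.re + (M * (P0 ⊗ₖ (1 : Matrix B B ℂ))).trace.re
    with hc
  have hc0 : 0 ≤ c := add_nonneg (trace_mul_psd hM (PosSemidef.one.kronecker hQ0))
    (trace_mul_psd hM (hP0.kronecker PosSemidef.one))
  refine le_of_forall_pos_le_add fun δ hδ => ?_
  have h1 := key (δ / (c + 1)) (by positivity)
  have h2 : δ / (c + 1) * c ≤ δ := by
    rw [div_mul_eq_mul_div, div_le_iff₀ (by positivity)]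
    nlinarith
  linarith

/-- The core inequality. -/
theorem core18 {P0 P1 : Matrix A A ℂ} {Q0 Q1 : Matrix B B ℂ} {H : Matrix (A × B) (A × B) ℂ}
    (hP0 : P0.PosSemidef) (hP1 : P1.PosSemidef) (hQ0 : Q0.PosSemidef) (hQ1 : Q1.PosSemidef)
    (hH : H.IsHermitian) (h : (fromBlocks (P1 ⊗ₖ Q1) H H (P0 ⊗ₖ Q0)).PosSemidef)
    {M : Matrix (A × B) (A × B) ℂ} (hM : M.PosSemidef) :
    (M * H).trace.re ^ 2 ≤ (M * (P1 ⊗ₖ Q0)).trace.re * (M * (P0 ⊗ₖ Q1)).trace.re := by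
  set x : ℝ := (M * (P1 ⊗ₖ Q0)).trace.re with hx
  set y : ℝ := (M * (P0 ⊗ₖ Q1)).trace.re with hy
  have hx0 : 0 ≤ x := trace_mul_psd hM (hP1.kronecker hQ0)
  have hy0 : 0 ≤ y := trace_mul_psd hM (hP0.kronecker hQ1)
  have key : ∀ (H' : Matrix (A × B) (A × B) ℂ), H'.IsHermitian →
      (fromBlocks (P1 ⊗ₖ Q1) H' H' (P0 ⊗ₖ Q0)).PosSemidef → ∀ t : ℝ, 0 < t →
      2 * (M * H').trace.re ≤ t * x + t⁻¹ * y := by
    intro H' hH' h' t ht
    have htc : (0 : ℂ) ≤ (t : ℂ) := by exact_mod_cast ht.le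
    have htc' : (0 : ℂ) ≤ ((t⁻¹ : ℝ) : ℂ) := by exact_mod_cast (inv_pos.mpr ht).le
    have e : ((t : ℂ) • P1) ⊗ₖ (((t⁻¹ : ℝ) : ℂ) • Q1) = P1 ⊗ₖ Q1 := by
      rw [smul_kronecker, kronecker_smul, smul_smul, ← Complex.ofReal_mul,
        mul_inv_cancel₀ ht.ne', Complex.ofReal_one, one_smul]
    have h1 := lin_psd (hP1.smul htc) hP0 (hQ1.smul htc') hQ0 hH' (by rw [e]; exact h') hM
    rwa [smul_kronecker, kronecker_smul, Matrix.mul_smul, Matrix.mul_smul, trace_smul, trace_smul,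
      smul_eq_mul, smul_eq_mul, Complex.re_ofReal_mul, Complex.re_ofReal_mul] at h1
  have hneg : (fromBlocks (P1 ⊗ₖ Q1) (-H) (-H) (P0 ⊗ₖ Q0)).PosSemidef := by
    have h1 := h.conjTranspose_mul_mul_same (fromBlocks (1 : Matrix (A × B) (A × B) ℂ) 0 0
      (-1 : Matrix (A × B) (A × B) ℂ))
    have e : (fromBlocks (1 : Matrix (A × B) (A × B) ℂ) 0 0 (-1 : Matrix (A × B) (A × B) ℂ))ᴴ *
        fromBlocks (P1 ⊗ₖ Q1) H H (P0 ⊗ₖ Q0) *
        fromBlocks (1 : Matrix (A × B) (A × B) ℂ) 0 0 (-1 : Matrix (A × B) (A × B) ℂ) =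
        fromBlocks (P1 ⊗ₖ Q1) (-H) (-H) (P0 ⊗ₖ Q0) := by
      rw [fromBlocks_conjTranspose, fromBlocks_multiply, fromBlocks_multiply]
      simp only [conjTranspose_zero, conjTranspose_one, conjTranspose_neg, Matrix.zero_mul,
        Matrix.mul_zero, add_zero, zero_add, Matrix.one_mul, Matrix.mul_one, Matrix.neg_mul,
        Matrix.mul_neg, neg_neg]
    rwa [e] at h1
  have habs : ∀ t : ℝ, 0 < t → 2 * |(M * H).trace.re| ≤ t * x + t⁻¹ * y := by
    intro t ht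
    have h1 := key H hH h t ht
    have h2 := key (-H) hH.neg hneg t ht
    rw [Matrix.mul_neg, trace_neg, Complex.neg_re] at h2
    rcases abs_cases (M * H).trace.re with ⟨h3, -⟩ | ⟨h3, -⟩ <;> rw [h3] <;> linarith
  set g : ℝ := |(M * H).trace.re| with hg
  have hg0 : 0 ≤ g := abs_nonneg _
  have hquad : ∀ t : ℝ, 0 ≤ x * (t * t) + (-(2 * g)) * t + y := by
    intro t
    rcases le_or_gt t 0 with ht | ht
    · nlinarith [mul_nonneg hx0 (mul_self_nonneg t), mul_nonneg hg0 (neg_nonneg.mpr ht)]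
    · have h1 := mul_le_mul_of_nonneg_left (habs t ht) ht.le
      have h2 : t * (t * x + t⁻¹ * y) = x * (t * t) + y := by
        field_simp
      rw [h2] at h1
      linarith
  have hd := discrim_le_zero hquad
  rw [discrim] at hd
  have h1 : (M * H).trace.re ^ 2 = g ^ 2 := by rw [hg, sq_abs]
  rw [h1]
  nlinarith

end two

end Vale.Agent.P372.Swap
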