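import Vale.Agent.P372.Swap.LinkDefs
import Vale.Agent.P372.R2.helper492.LetterDefs
import Vale.Agent.P372.Bdl.B1

open Matrix Kronecker
open scoped ComplexOrder MatrixOrder

set_option linter.unusedSectionVars false
set_option linter.unusedSimpArgs false

namespace Vale.Agent.P372.Swap

variable {A B A' B' : Type} [Fintype A] [DecidableEq A] [Fintype B] [DecidableEq B]
  [Fintype A'] [DecidableEq A'] [Fintype B'] [DecidableEq B']

/-- The dual map of `link`. -/
def F (s : Matrix (A × A') (A × A') ℂ) (t : Matrix (B × B') (B × B') ℂ)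
    (Z : Matrix (A × B) (A × B) ℂ) : Matrix (A' × B') (A' × B') ℂ :=
  fun x y => ∑ p : A × B, ∑ q : A × B, s (p.1, y.1) (q.1, x.1) * t (p.2, y.2) (q.2, x.2) * Z q p

/-- The dual map of one party. -/
def Fs (s : Matrix (A × A') (A × A') ℂ) (a : Matrix A A ℂ) : Matrix A' A' ℂ :=
  fun x y => ∑ p, ∑ q, s (p, y) (q, x) * a q p

theorem trace_link_mul (s : Matrix (A × A') (A × A') ℂ) (t : Matrix (B × B') (B × B') ℂ)
    (M : Matrix (A' × B') (A' × B') ℂ) (Z : Matrix (A × B) (A × B) ℂ) :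
    (link s t M * Z).trace = (M * F s t Z).trace := by
  have e1 : (link s t M * Z).trace = ∑ p : A × B, ∑ q : A × B, ∑ x : A' × B', ∑ y : A' × B',
      s (p.1, x.1) (q.1, y.1) * t (p.2, x.2) (q.2, y.2) * M x y * Z q p := by
    simp only [trace, diag_apply, mul_apply, link, Finset.sum_mul]
  have e2 : (M * F s t Z).trace = ∑ x : A' × B', ∑ y : A' × B', ∑ p : A × B, ∑ q : A × B,
      s (p.1, x.1) (q.1, y.1) * t (p.2, x.2) (q.2, y.2) * M x y * Z q p := by
    simp only [trace, diag_apply, mul_apply, F, Finset.mul_sum]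
    refine Finset.sum_congr rfl fun x _ => Finset.sum_congr rfl fun y _ =>
      Finset.sum_congr rfl fun p _ => Finset.sum_congr rfl fun q _ => ?_
    ring
  rw [e1, e2]
  have e3 : ∀ p : A × B, ∑ q : A × B, ∑ x : A' × B', ∑ y : A' × B',
      s (p.1, x.1) (q.1, y.1) * t (p.2, x.2) (q.2, y.2) * M x y * Z q p =
      ∑ x : A' × B', ∑ y : A' × B', ∑ q : A × B,
      s (p.1, x.1) (q.1, y.1) * t (p.2, x.2) (q.2, y.2) * M x y * Z q p := by
    intro p
    rw [Finset.sum_comm]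
    refine Finset.sum_congr rfl fun x _ => ?_
    rw [Finset.sum_comm]
  simp only [e3]
  rw [Finset.sum_comm]
  refine Finset.sum_congr rfl fun x _ => ?_
  rw [Finset.sum_comm]

theorem F_kron (s : Matrix (A × A') (A × A') ℂ) (t : Matrix (B × B') (B × B') ℂ)
    (a : Matrix A A ℂ) (b : Matrix B B ℂ) : F s t (a ⊗ₖ b) = Fs s a ⊗ₖ Fs t b := by
  ext x y
  rw [kroneckerMap_apply, F, Fs, Fs, Finset.sum_mul_sum, Fintype.sum_prod_type]
  refine Finset.sum_congr rfl fun p _ => Finset.sum_congr rfl fun p' _ => ?_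
  rw [Finset.sum_mul_sum, Fintype.sum_prod_type]
  refine Finset.sum_congr rfl fun q _ => Finset.sum_congr rfl fun q' _ => ?_
  rw [kroneckerMap_apply]
  ring

/-- Kraus operators of a positive semidefinite operator on `A × A'`. -/
theorem exists_kraus {s : Matrix (A × A') (A × A') ℂ} (hs : s.PosSemidef) :
    ∃ G : A × A' → Matrix A A' ℂ, ∀ p y q x, s (p, y) (q, x) = ∑ k, G k p y * star (G k q x) := by
  obtain ⟨R, hR⟩ := exists_eq_conjTranspose_mul_self hs
  refine ⟨fun k => Matrix.of fun p y => star (R k (p, y)), fun p y q x => ?_⟩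
  rw [hR, mul_apply]
  refine Finset.sum_congr rfl fun k _ => ?_
  simp only [of_apply, star_star, conjTranspose_apply]

theorem Fs_eq_sum {s : Matrix (A × A') (A × A') ℂ} {κ : Type} [Fintype κ]
    {G : κ → Matrix A A' ℂ} (h : ∀ p y q x, s (p, y) (q, x) = ∑ k, G k p y * star (G k q x))
    (a : Matrix A A ℂ) : Fs s a = ∑ k, (G k)ᴴ * a * G k := by
  ext x y
  rw [Fs, Matrix.sum_apply]
  have e : ∀ k, ((G k)ᴴ * a * G k) x y = ∑ p, ∑ q, G k p y * star (G k q x) * a q p := by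
    intro k
    rw [mul_apply]
    refine Finset.sum_congr rfl fun p _ => ?_
    rw [mul_apply, Finset.sum_mul]
    refine Finset.sum_congr rfl fun q _ => ?_
    rw [conjTranspose_apply]
    ring
  simp only [e, h, Finset.sum_mul]
  have e3 : ∀ p : A, ∑ q : A, ∑ k, G k p y * star (G k q x) * a q p =
      ∑ k, ∑ q : A, G k p y * star (G k q x) * a q p := fun p => Finset.sum_comm
  simp only [e3]
  exact Finset.sum_comm

theorem Fs_posSemidef {s : Matrix (A × A') (A × A') ℂ} (hs : s.PosSemidef) {a : Matrix A A ℂ}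
    (ha : a.PosSemidef) : (Fs s a).PosSemidef := by
  obtain ⟨G, hG⟩ := exists_kraus hs
  rw [Fs_eq_sum hG]
  exact posSemidef_sum _ fun k _ => ha.conjTranspose_mul_mul_same (G k)

theorem F_eq_sum {s : Matrix (A × A') (A × A') ℂ} {t : Matrix (B × B') (B × B') ℂ}
    {κ μ : Type} [Fintype κ] [Fintype μ] {G : κ → Matrix A A' ℂ} {H : μ → Matrix B B' ℂ}
    (h : ∀ p y q x, s (p, y) (q, x) = ∑ k, G k p y * star (G k q x))
    (h' : ∀ p y q x, t (p, y) (q, x) = ∑ k, H k p y * star (H k q x))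
    (Z : Matrix (A × B) (A × B) ℂ) :
    F s t Z = ∑ m : κ × μ, (G m.1 ⊗ₖ H m.2)ᴴ * Z * (G m.1 ⊗ₖ H m.2) := by
  ext x y
  rw [F, Matrix.sum_apply]
  have e : ∀ m : κ × μ, ((G m.1 ⊗ₖ H m.2)ᴴ * Z * (G m.1 ⊗ₖ H m.2)) x y = ∑ p, ∑ q,
      (G m.1 p.1 y.1 * star (G m.1 q.1 x.1)) * (H m.2 p.2 y.2 * star (H m.2 q.2 x.2)) * Z q p := by
    intro m
    rw [mul_apply]
    refine Finset.sum_congr rfl fun p _ => ?_
    rw [mul_apply, Finset.sum_mul]
    refine Finset.sum_congr rfl fun q _ => ?_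
    rw [conjTranspose_apply, kroneckerMap_apply, kroneckerMap_apply, star_mul']
    ring
  have e' : ∀ p q : A × B, s (p.1, y.1) (q.1, x.1) * t (p.2, y.2) (q.2, x.2) * Z q p =
      ∑ m : κ × μ, (G m.1 p.1 y.1 * star (G m.1 q.1 x.1)) *
        (H m.2 p.2 y.2 * star (H m.2 q.2 x.2)) * Z q p := by
    intro p q
    rw [h, h', Finset.sum_mul_sum, Fintype.sum_prod_type, Finset.sum_mul]
    refine Finset.sum_congr rfl fun k _ => ?_
    rw [Finset.sum_mul]
  simp only [e, e']
  have e3 : ∀ p : A × B, ∑ q : A × B, ∑ m : κ × μ, (G m.1 p.1 y.1 * star (G m.1 q.1 x.1)) *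
      (H m.2 p.2 y.2 * star (H m.2 q.2 x.2)) * Z q p =
      ∑ m : κ × μ, ∑ q : A × B, (G m.1 p.1 y.1 * star (G m.1 q.1 x.1)) *
      (H m.2 p.2 y.2 * star (H m.2 q.2 x.2)) * Z q p := fun p => Finset.sum_comm
  simp only [e3]
  exact Finset.sum_comm

/-- Kraus operators of an operator with positive semidefinite partial transpose. -/
theorem exists_kraus' {s : Matrix (A × A') (A × A') ℂ} (hs : (pTrans s).PosSemidef) :
    ∃ G : A × A' → Matrix A A' ℂ, ∀ p y q x, s (p, y) (q, x) = ∑ k, G k q y * star (G k p x) := by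
  obtain ⟨R, hR⟩ := exists_eq_conjTranspose_mul_self hs
  refine ⟨fun k => Matrix.of fun p y => R k (p, y), fun p y q x => ?_⟩
  have e : s (p, y) (q, x) = (pTrans s) (p, x) (q, y) := rfl
  rw [e, hR, mul_apply]
  refine Finset.sum_congr rfl fun k _ => ?_
  simp only [of_apply, conjTranspose_apply]
  ring

theorem F_eq_sum' {s : Matrix (A × A') (A × A') ℂ} {t : Matrix (B × B') (B × B') ℂ}
    {κ μ : Type} [Fintype κ] [Fintype μ] {G : κ → Matrix A A' ℂ} {H : μ → Matrix B B' ℂ}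
    (h : ∀ p y q x, s (p, y) (q, x) = ∑ k, G k q y * star (G k p x))
    (h' : ∀ p y q x, t (p, y) (q, x) = ∑ k, H k q y * star (H k p x))
    (Z : Matrix (A × B) (A × B) ℂ) :
    F s t Z = ∑ m : κ × μ, (G m.1 ⊗ₖ H m.2)ᴴ * Zᵀ * (G m.1 ⊗ₖ H m.2) := by
  ext x y
  rw [F, Matrix.sum_apply]
  have e : ∀ m : κ × μ, ((G m.1 ⊗ₖ H m.2)ᴴ * Zᵀ * (G m.1 ⊗ₖ H m.2)) x y = ∑ p, ∑ q,
      (G m.1 q.1 y.1 * star (G m.1 p.1 x.1)) * (H m.2 q.2 y.2 * star (H m.2 p.2 x.2)) * Z q p := by
    intro m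
    rw [mul_apply, Finset.sum_comm]
    refine Finset.sum_congr rfl fun q _ => ?_
    rw [mul_apply, Finset.sum_mul]
    refine Finset.sum_congr rfl fun p _ => ?_
    rw [conjTranspose_apply, kroneckerMap_apply, kroneckerMap_apply, star_mul', transpose_apply]
    ring
  have e' : ∀ p q : A × B, s (p.1, y.1) (q.1, x.1) * t (p.2, y.2) (q.2, x.2) * Z q p =
      ∑ m : κ × μ, (G m.1 q.1 y.1 * star (G m.1 p.1 x.1)) *
        (H m.2 q.2 y.2 * star (H m.2 p.2 x.2)) * Z q p := by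
    intro p q
    rw [h, h', Finset.sum_mul_sum, Fintype.sum_prod_type, Finset.sum_mul]
    refine Finset.sum_congr rfl fun k _ => ?_
    rw [Finset.sum_mul]
  simp only [e, e']
  have e3 : ∀ p : A × B, ∑ q : A × B, ∑ m : κ × μ, (G m.1 q.1 y.1 * star (G m.1 p.1 x.1)) *
      (H m.2 q.2 y.2 * star (H m.2 p.2 x.2)) * Z q p =
      ∑ m : κ × μ, ∑ q : A × B, (G m.1 q.1 y.1 * star (G m.1 p.1 x.1)) *
      (H m.2 q.2 y.2 * star (H m.2 p.2 x.2)) * Z q p := fun p => Finset.sum_comm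
  simp only [e3]
  exact Finset.sum_comm

/-- Conjugation of a block matrix by a block diagonal one. -/
theorem blocks_conj {I J : Type} [Fintype I] [DecidableEq I] [Fintype J] [DecidableEq J]
    (S : Matrix I J ℂ) (X Y C D : Matrix I I ℂ) :
    (fromBlocks S 0 0 S)ᴴ * fromBlocks X C D Y * fromBlocks S 0 0 S =
      fromBlocks (Sᴴ * X * S) (Sᴴ * C * S) (Sᴴ * D * S) (Sᴴ * Y * S) := by
  rw [fromBlocks_conjTranspose, fromBlocks_multiply, fromBlocks_multiply]
  simp only [conjTranspose_zero, Matrix.zero_mul, Matrix.mul_zero, add_zero, zero_add]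

theorem blocks_sum {I κ : Type} [Fintype κ] (X Y C D : κ → Matrix I I ℂ) :
    ∑ k, fromBlocks (X k) (C k) (D k) (Y k) =
      fromBlocks (∑ k, X k) (∑ k, C k) (∑ k, D k) (∑ k, Y k) := by
  ext i j
  rcases i with i | i <;> rcases j with j | j <;>
    simp only [Matrix.sum_apply, fromBlocks_apply₁₁, fromBlocks_apply₁₂, fromBlocks_apply₂₁,
      fromBlocks_apply₂₂]

/-- The dual map is 2-positive when `s`, `t` are positive semidefinite. -/
theorem F_blocks {s : Matrix (A × A') (A × A') ℂ} {t : Matrix (B × B') (B × B') ℂ}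
    (hs : s.PosSemidef) (ht : t.PosSemidef) {X Y C D : Matrix (A × B) (A × B) ℂ}
    (h : (fromBlocks X C D Y).PosSemidef) :
    (fromBlocks (F s t X) (F s t C) (F s t D) (F s t Y)).PosSemidef := by
  obtain ⟨G, hG⟩ := exists_kraus hs
  obtain ⟨H, hH⟩ := exists_kraus ht
  rw [F_eq_sum hG hH, F_eq_sum hG hH, F_eq_sum hG hH, F_eq_sum hG hH, ← blocks_sum]
  refine posSemidef_sum _ fun m _ => ?_
  rw [← blocks_conj]
  exact h.conjTranspose_mul_mul_same _

/-- The dual map is 2-copositive when `s`, `t` have positive semidefinite partial transposes. -/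
theorem F_blocks' {s : Matrix (A × A') (A × A') ℂ} {t : Matrix (B × B') (B × B') ℂ}
    (hs : (pTrans s).PosSemidef) (ht : (pTrans t).PosSemidef)
    {X Y C D : Matrix (A × B) (A × B) ℂ} (h : (fromBlocks X C D Y).PosSemidef) :
    (fromBlocks (F s t X) (F s t D) (F s t C) (F s t Y)).PosSemidef := by
  obtain ⟨G, hG⟩ := exists_kraus' hs
  obtain ⟨H, hH⟩ := exists_kraus' ht
  rw [F_eq_sum' hG hH, F_eq_sum' hG hH, F_eq_sum' hG hH, F_eq_sum' hG hH, ← blocks_sum]
  refine posSemidef_sum _ fun m _ => ?_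
  rw [← blocks_conj, ← fromBlocks_transpose]
  exact h.transpose.conjTranspose_mul_mul_same _

theorem F_add (s : Matrix (A × A') (A × A') ℂ) (t : Matrix (B × B') (B × B') ℂ)
    (Z W : Matrix (A × B) (A × B) ℂ) : F s t (Z + W) = F s t Z + F s t W := by
  ext x y
  simp only [F, Matrix.add_apply, mul_add, Finset.sum_add_distrib]

/-- The blocks with the Hermitian off-diagonal block. -/
theorem F_blocks_herm {s : Matrix (A × A') (A × A') ℂ} {t : Matrix (B × B') (B × B') ℂ}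
    (hs : s.PosSemidef) (ht : t.PosSemidef) (hs' : (pTrans s).PosSemidef)
    (ht' : (pTrans t).PosSemidef)
    {X Y C D : Matrix (A × B) (A × B) ℂ} (h : (fromBlocks X C D Y).PosSemidef) :
    (fromBlocks (F s t X) ((1 / 2 : ℂ) • (F s t C + F s t D))
      ((1 / 2 : ℂ) • (F s t C + F s t D)) (F s t Y)).PosSemidef := by
  have h1 := (F_blocks hs ht h).add (F_blocks' hs' ht' h)
  have h2 := h1.smul (a := (1 / 2 : ℂ)) (by
    rw [Complex.le_def]
    norm_num)
  have e : (1 / 2 : ℂ) • (fromBlocks (F s t X) (F s t C) (F s t D) (F s t Y) +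
      fromBlocks (F s t X) (F s t D) (F s t C) (F s t Y)) =
      fromBlocks (F s t X) ((1 / 2 : ℂ) • (F s t C + F s t D))
      ((1 / 2 : ℂ) • (F s t C + F s t D)) (F s t Y) := by
    rw [fromBlocks_add, fromBlocks_smul, ← two_smul ℂ (F s t X), ← two_smul ℂ (F s t Y),
      smul_smul, smul_smul, add_comm (F s t D) (F s t C)]
    norm_num
  rwa [e] at h2

end Vale.Agent.P372.Swap
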