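import Vale.Agent.P372.TestDefs

open Matrix Kronecker
open scoped ComplexOrder

namespace Vale.Agent.P372.Swap

/-- The operator `tr_{A'B'} [(s ⊗ t) (1 ⊗ Mᵀ)]` on `A × B`: the operator on `A × B` obtained from
`s` on `A × A'` and `t` on `B × B'` when `A'` and `B'` are projected by the effect `Mᵀ`. -/
def link {A B A' B' : Type} [Fintype A'] [Fintype B'] (s : Matrix (A × A') (A × A') ℂ)
    (t : Matrix (B × B') (B × B') ℂ) (M : Matrix (A' × B') (A' × B') ℂ) :
    Matrix (A × B) (A × B) ℂ :=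
  fun p q => ∑ x : A' × B', ∑ y : A' × B',
    s (p.1, x.1) (q.1, y.1) * t (p.2, x.2) (q.2, y.2) * M x y

end Vale.Agent.P372.Swap
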