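import Vale.Agent.P372.Swap.Link2

open Matrix Kronecker
open scoped ComplexOrder MatrixOrder

set_option linter.unusedSectionVars false
set_option linter.unusedSimpArgs false

namespace Vale.Agent.P372.Swap

variable {A B A' B' K : Type} [Fintype A] [DecidableEq A] [Fintype B] [DecidableEq B]
  [Fintype A'] [DecidableEq A'] [Fintype B'] [DecidableEq B'] [Fintype K] [DecidableEq K]

/-- The block diagonal operator with blocks `s k`. -/
def sumS (s : K → Matrix (A × A') (A × A') ℂ) : Matrix (A × (K × A')) (A × (K × A')) ℂ :=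
  fun u v => if u.2.1 = v.2.1 then s u.2.1 (u.1, u.2.2) (v.1, v.2.2) else 0

/-- The operator `∑ k, |k k⟩⟨k k| ⊗ M k`. -/
def sumM (M : K → Matrix (A' × B') (A' × B') ℂ) :
    Matrix ((K × A') × (K × B')) ((K × A') × (K × B')) ℂ :=
  fun u v => if u.1.1 = u.2.1 ∧ v.1.1 = v.2.1 ∧ u.1.1 = v.1.1 then
    M u.1.1 (u.1.2, u.2.2) (v.1.2, v.2.2) else 0

theorem psd_ind {I J : Type} [Fintype I] [DecidableEq I] [Fintype J] [DecidableEq J]
    {X : Matrix I I ℂ} (hX : X.PosSemidef) (π : J → I) (g : J → Prop) [DecidablePred g] :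
    (Matrix.of fun u v => if g u ∧ g v then X (π u) (π v) else 0).PosSemidef := by
  have h := (hX.submatrix π).mul_mul_conjTranspose_same
    (diagonal fun u => if g u then (1 : ℂ) else 0)
  have e : (diagonal fun u => if g u then (1 : ℂ) else 0) * X.submatrix π π *
      (diagonal fun u => if g u then (1 : ℂ) else 0)ᴴ =
      Matrix.of fun u v => if g u ∧ g v then X (π u) (π v) else 0 := by
    ext u v
    rw [diagonal_conjTranspose, mul_diagonal, diagonal_mul, submatrix_apply, of_apply]
    simp only [Pi.star_apply]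
    by_cases h1 : g u <;> by_cases h2 : g v <;> simp [h1, h2]
  rwa [e] at h

theorem sumS_psd {s : K → Matrix (A × A') (A × A') ℂ} (h : ∀ k, (s k).PosSemidef) :
    (sumS s).PosSemidef := by
  have e : sumS s = ∑ k, Matrix.of fun (u v : A × (K × A')) =>
      if u.2.1 = k ∧ v.2.1 = k then s k (u.1, u.2.2) (v.1, v.2.2) else 0 := by
    ext u v
    rw [Matrix.sum_apply]
    simp only [of_apply, sumS]
    rw [Finset.sum_eq_single u.2.1]
    · by_cases h1 : u.2.1 = v.2.1
      · simp [h1]
      · have h2 : ¬ v.2.1 = u.2.1 := fun h3 => h1 h3.symm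
        simp [h1, h2]
    · intro k _ hk
      rw [if_neg]
      exact fun h3 => hk h3.1.symm
    · intro h3
      exact absurd (Finset.mem_univ _) h3
  rw [e]
  exact posSemidef_sum _ fun k _ =>
    psd_ind (h k) (fun u : A × (K × A') => (u.1, u.2.2)) fun u => u.2.1 = k

theorem sumS_pt (s : K → Matrix (A × A') (A × A') ℂ) :
    pTrans (sumS s) = sumS fun k => pTrans (s k) := by
  ext u v
  simp only [pTrans, sumS]
  by_cases h : u.2.1 = v.2.1
  · rw [if_pos h.symm, if_pos h, h]
  · rw [if_neg fun h' => h h'.symm, if_neg h]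

theorem sumS_pt_psd {s : K → Matrix (A × A') (A × A') ℂ} (h : ∀ k, (pTrans (s k)).PosSemidef) :
    (pTrans (sumS s)).PosSemidef := by
  rw [sumS_pt]
  exact sumS_psd h

theorem sumM_psd {M : K → Matrix (A' × B') (A' × B') ℂ} (h : ∀ k, (M k).PosSemidef) :
    (sumM M).PosSemidef := by
  have e : sumM M = ∑ k, Matrix.of fun (u v : (K × A') × (K × B')) =>
      if (u.1.1 = k ∧ u.2.1 = k) ∧ (v.1.1 = k ∧ v.2.1 = k) then
        M k (u.1.2, u.2.2) (v.1.2, v.2.2) else 0 := by
    ext u v
    rw [Matrix.sum_apply]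
    simp only [of_apply, sumM]
    rw [Finset.sum_eq_single u.1.1]
    · by_cases h1 : u.1.1 = u.2.1 ∧ v.1.1 = v.2.1 ∧ u.1.1 = v.1.1
      · rw [if_pos h1, if_pos]
        exact ⟨⟨rfl, h1.1.symm⟩, h1.2.2.symm, h1.2.1.symm.trans h1.2.2.symm⟩
      · rw [if_neg h1, if_neg]
        rintro ⟨⟨-, h2⟩, h3, h4⟩
        exact h1 ⟨h2.symm, h3.trans h4.symm, h3.symm⟩
    · intro k _ hk
      rw [if_neg]
      exact fun h3 => hk h3.1.1.symm
    · intro h3
      exact absurd (Finset.mem_univ _) h3
  rw [e]
  exact posSemidef_sum _ fun k _ =>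
    psd_ind (h k) (fun u : (K × A') × (K × B') => (u.1.2, u.2.2)) fun u => u.1.1 = k ∧ u.2.1 = k

theorem sum_link (s : K → Matrix (A × A') (A × A') ℂ) (t : K → Matrix (B × B') (B × B') ℂ)
    (M : K → Matrix (A' × B') (A' × B') ℂ) :
    link (sumS s) (sumS t) (sumM M) = ∑ k, link (s k) (t k) (M k) := by
  ext p q
  rw [Matrix.sum_apply]
  simp only [link, Fintype.sum_prod_type, sumS, sumM]
  refine Finset.sum_congr rfl fun k _ => ?_
  refine Finset.sum_congr rfl fun a _ => ?_
  rw [Finset.sum_eq_single k]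
  · refine Finset.sum_congr rfl fun b _ => ?_
    rw [Finset.sum_eq_single k]
    · refine Finset.sum_congr rfl fun a' _ => ?_
      rw [Finset.sum_eq_single k]
      · simp
      · intro l _ hl
        simp [hl, Ne.symm hl]
      · intro h3
        exact absurd (Finset.mem_univ _) h3
    · intro l _ hl
      simp [hl, Ne.symm hl]
    · intro h3
      exact absurd (Finset.mem_univ _) h3
  · intro l _ hl
    refine Finset.sum_eq_zero fun b _ => Finset.sum_eq_zero fun k' _ => Finset.sum_eq_zero
      fun a' _ => Finset.sum_eq_zero fun l' _ => Finset.sum_eq_zero fun b' _ => ?_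
    rw [if_neg (c := k = l ∧ _), mul_zero]
    exact fun h3 => hl h3.1.symm
  · intro h3
    exact absurd (Finset.mem_univ _) h3

end Vale.Agent.P372.Swap
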